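import Mathlib

/-!
# P064, part II: the `p`-random subset of a finite set, as finite weighted sums

`bern X₀ p W = p^|W| (1-p)^(|X₀|-|W|)` is the probability that the `p`-random subset of `X₀`
equals `W`, and `Ex X₀ p φ` is the expectation of `φ`.
-/

namespace Vale.Agent.P064

open Finset

variable {α : Type*} [DecidableEq α]

/-- probability that the `p`-random subset of `X₀` equals `W` -/
noncomputable def bern (X₀ : Finset α) (p : ℝ) (W : Finset α) : ℝ :=
  p ^ W.card * (1 - p) ^ (X₀.card - W.card)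

/-- expectation of `φ` of the `p`-random subset of `X₀` -/
noncomputable def Ex (X₀ : Finset α) (p : ℝ) (φ : Finset α → ℝ) : ℝ :=
  ∑ W ∈ X₀.powerset, bern X₀ p W * φ W

theorem bern_nonneg (X₀ W : Finset α) {p : ℝ} (h0 : 0 ≤ p) (h1 : p ≤ 1) : 0 ≤ bern X₀ p W := by
  unfold bern
  have : 0 ≤ 1 - p := by linarith
  positivity

theorem Ex_congr (X₀ : Finset α) (p : ℝ) {φ ψ : Finset α → ℝ}
    (h : ∀ W ⊆ X₀, φ W = ψ W) : Ex X₀ p φ = Ex X₀ p ψ := by
  unfold Ex
  apply Finset.sum_congr rfl
  intro W hW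
  rw [h W (Finset.mem_powerset.mp hW)]

theorem Ex_empty (p : ℝ) (φ : Finset α → ℝ) : Ex (∅ : Finset α) p φ = φ ∅ := by
  simp [Ex, bern]

theorem Ex_insert {X : Finset α} {x : α} (hx : x ∉ X) (p : ℝ) (φ : Finset α → ℝ) :
    Ex (insert x X) p φ = (1 - p) * Ex X p φ + p * Ex X p (fun W => φ (insert x W)) := by
  unfold Ex
  rw [Finset.sum_powerset_insert hx, Finset.mul_sum, Finset.mul_sum]
  congr 1
  · apply Finset.sum_congr rfl
    intro W hW
    have hWX := Finset.mem_powerset.mp hW
    have hc := Finset.card_le_card hWX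
    unfold bern
    rw [Finset.card_insert_of_notMem hx, show X.card + 1 - W.card = (X.card - W.card) + 1 by omega,
      pow_succ]
    ring
  · apply Finset.sum_congr rfl
    intro W hW
    have hWX := Finset.mem_powerset.mp hW
    have hxW : x ∉ W := fun h => hx (hWX h)
    unfold bern
    rw [Finset.card_insert_of_notMem hx, Finset.card_insert_of_notMem hxW,
      show X.card + 1 - (W.card + 1) = X.card - W.card by omega, pow_succ]
    ring

theorem Ex_const (X₀ : Finset α) (p c : ℝ) : Ex X₀ p (fun _ => c) = c := by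
  induction X₀ using Finset.induction_on with
  | empty => rw [Ex_empty]
  | insert x X hx ih =>
    rw [Ex_insert hx, ih]
    ring

theorem Ex_mono (X₀ : Finset α) {p : ℝ} (h0 : 0 ≤ p) (h1 : p ≤ 1) {φ ψ : Finset α → ℝ}
    (h : ∀ W ⊆ X₀, φ W ≤ ψ W) : Ex X₀ p φ ≤ Ex X₀ p ψ := by
  unfold Ex
  apply Finset.sum_le_sum
  intro W hW
  exact mul_le_mul_of_nonneg_left (h W (Finset.mem_powerset.mp hW)) (bern_nonneg X₀ W h0 h1)

theorem Ex_add (X₀ : Finset α) (p : ℝ) (φ ψ : Finset α → ℝ) :
    Ex X₀ p (fun W => φ W + ψ W) = Ex X₀ p φ + Ex X₀ p ψ := by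
  unfold Ex
  rw [← Finset.sum_add_distrib]
  apply Finset.sum_congr rfl
  intro W _
  ring

theorem Ex_const_mul (X₀ : Finset α) (p c : ℝ) (φ : Finset α → ℝ) :
    Ex X₀ p (fun W => c * φ W) = c * Ex X₀ p φ := by
  unfold Ex
  rw [Finset.mul_sum]
  apply Finset.sum_congr rfl
  intro W _
  ring

theorem Ex_sum {ι : Type*} (s : Finset ι) (X₀ : Finset α) (p : ℝ) (φ : ι → Finset α → ℝ) :
    Ex X₀ p (fun W => ∑ i ∈ s, φ i W) = ∑ i ∈ s, Ex X₀ p (φ i) := by
  unfold Ex
  rw [Finset.sum_comm]
  apply Finset.sum_congr rfl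
  intro W _
  rw [Finset.mul_sum]

/-- the random subset contains a fixed set `A` with probability `p^|A|` -/
theorem Ex_superset {X₀ A : Finset α} (hA : A ⊆ X₀) (p : ℝ) :
    Ex X₀ p (fun W => if A ⊆ W then (1 : ℝ) else 0) = p ^ A.card := by
  induction X₀ using Finset.induction_on generalizing A with
  | empty =>
    rw [Ex_empty]
    have : A = ∅ := Finset.subset_empty.mp hA
    subst this
    simp
  | insert x X hx ih =>
    rw [Ex_insert hx]
    by_cases hxA : x ∈ A
    · have h1 : Ex X p (fun W => if A ⊆ W then (1 : ℝ) else 0) = 0 := by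
        rw [Ex_congr X p (ψ := fun _ => 0), Ex_const]
        intro W hW
        rw [if_neg]
        intro h
        exact hx (hW (h hxA))
      have h2 : Ex X p (fun W => if A ⊆ insert x W then (1 : ℝ) else 0) = p ^ (A.erase x).card := by
        rw [← ih (A := A.erase x) (by
          intro y hy
          rw [Finset.mem_erase] at hy
          exact (Finset.mem_insert.mp (hA hy.2)).resolve_left hy.1)]
        apply Ex_congr
        intro W _
        simp only [Finset.subset_insert_iff]
      rw [h1, h2, Finset.card_erase_of_mem hxA]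
      have : 0 < A.card := Finset.card_pos.mpr ⟨x, hxA⟩
      obtain ⟨k, hk⟩ : ∃ k, A.card = k + 1 := ⟨A.card - 1, by omega⟩
      rw [hk, Nat.add_sub_cancel, pow_succ]
      ring
    · have hAX : A ⊆ X := by
        intro y hy
        rcases Finset.mem_insert.mp (hA hy) with h | h
        · exact absurd (h ▸ hy) hxA
        · exact h
      have h2 : Ex X p (fun W => if A ⊆ insert x W then (1 : ℝ) else 0) = p ^ A.card := by
        rw [← ih hAX]
        apply Ex_congr
        intro W _
        simp only [Finset.subset_insert_iff, Finset.erase_eq_of_notMem hxA]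
      rw [ih hAX, h2]
      ring

/-- adding a disjoint set `T` to `W` costs a factor at most `p^|T|` -/
theorem bern_le_bern_union {X₀ W T : Finset α} (hW : W ⊆ X₀) (hT : T ⊆ X₀) (hd : Disjoint W T)
    {p : ℝ} (h0 : 0 < p) (h1 : p ≤ 1) :
    bern X₀ p W * p ^ T.card ≤ bern X₀ p (W ∪ T) := by
  unfold bern
  rw [Finset.card_union_of_disjoint hd, pow_add]
  have h2 : (1 - p) ^ (X₀.card - W.card) ≤ (1 - p) ^ (X₀.card - (W.card + T.card)) :=
    pow_le_pow_of_le_one (by linarith) (by linarith) (by omega)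
  have h3 : 0 ≤ p ^ W.card * p ^ T.card := by positivity
  calc p ^ W.card * (1 - p) ^ (X₀.card - W.card) * p ^ T.card
      = p ^ W.card * p ^ T.card * (1 - p) ^ (X₀.card - W.card) := by ring
    _ ≤ p ^ W.card * p ^ T.card * (1 - p) ^ (X₀.card - (W.card + T.card)) :=
        mul_le_mul_of_nonneg_left h2 h3

end Vale.Agent.P064
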