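import Vale.Agent.P064.Bern

/-!
# P064, part II: unions of independent random subsets, monotonicity in `p`
-/

namespace Vale.Agent.P064

open Finset

variable {α : Type*} [DecidableEq α]

/-- the union of two independent random subsets is a random subset -/
theorem Ex_union (X₀ : Finset α) (p p' : ℝ) (φ : Finset α → ℝ) :
    Ex X₀ p (fun W₁ => Ex X₀ p' (fun W₂ => φ (W₁ ∪ W₂))) = Ex X₀ (p + p' - p * p') φ := by
  induction X₀ using Finset.induction_on generalizing φ with
  | empty => simp only [Ex_empty, Finset.union_empty]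
  | insert x X hx ih =>
    rw [Ex_insert hx, Ex_insert hx]
    simp only [Ex_insert hx, Ex_add, Ex_const_mul, Finset.union_insert, Finset.insert_union,
      Finset.insert_idem]
    rw [ih φ, ih (fun W => φ (insert x W))]
    ring

/-- monotonicity in `p` for increasing functions -/
theorem Ex_mono_p (X₀ : Finset α) {p p' : ℝ} (h0 : 0 ≤ p) (hpp : p ≤ p') (h1 : p' ≤ 1)
    {φ : Finset α → ℝ} (hφ : ∀ W W', W ⊆ W' → W' ⊆ X₀ → φ W ≤ φ W') :
    Ex X₀ p φ ≤ Ex X₀ p' φ := by
  rcases eq_or_lt_of_le (hpp.trans h1) with hp1 | hp1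
  · have : p' = p := le_antisymm (by rw [hp1]; exact h1) hpp
    rw [this]
  · have hpos : 0 < 1 - p := by linarith
    set p₂ := (p' - p) / (1 - p) with hp₂
    have h20 : 0 ≤ p₂ := div_nonneg (by linarith) hpos.le
    have h21 : p₂ ≤ 1 := by
      rw [hp₂, div_le_one hpos]
      linarith
    have hq : p + p₂ - p * p₂ = p' := by
      rw [hp₂]
      field_simp
      ring
    rw [← hq, ← Ex_union]
    apply Ex_mono X₀ h0 (hpp.trans h1)
    intro W₁ hW₁
    calc φ W₁ = Ex X₀ p₂ (fun _ => φ W₁) := (Ex_const X₀ p₂ (φ W₁)).symm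
      _ ≤ Ex X₀ p₂ (fun W₂ => φ (W₁ ∪ W₂)) := by
          apply Ex_mono X₀ h20 h21
          intro W₂ hW₂
          exact hφ _ _ Finset.subset_union_left (Finset.union_subset hW₁ hW₂)

end Vale.Agent.P064
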