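import Mathlib

/-!
# P064, part I: basic counting for a finite group acting on a finite set

`cnt Γ A B` is the number of group elements carrying the finite set `A` into `B`.
For `Γ` the symmetric group of `Fin n` acting on the edges of the complete graph,
`cnt Γ F G / n!` equals `N(G,F) / N(K_n,F)`.
-/

namespace Vale.Agent.P064

open Finset
open scoped Pointwise

variable (Γ : Type*) {X : Type*} [Group Γ] [Fintype Γ] [DecidableEq X] [MulAction Γ X]

/-- number of group elements carrying `A` into `B` -/
noncomputable def cnt (A B : Finset X) : ℕ :=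
  (univ.filter (fun g : Γ => g • A ⊆ B)).card

variable {Γ}

theorem cnt_mono_right {A B B' : Finset X} (h : B ⊆ B') : cnt Γ A B ≤ cnt Γ A B' := by
  unfold cnt
  apply card_le_card
  intro g hg
  simp only [mem_filter, mem_univ, true_and] at hg ⊢
  exact hg.trans h

theorem cnt_smul_right (ρ : Γ) (A B : Finset X) : cnt Γ A (ρ • B) = cnt Γ A B := by
  unfold cnt
  apply card_bij (fun g _ => ρ⁻¹ * g)
  · intro g hg
    simp only [mem_filter, mem_univ, true_and] at hg ⊢
    rw [mul_smul]
    intro x hx
    have := Finset.smul_finset_subset_smul_finset (a := ρ⁻¹) hg hx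
    simpa using this
  · intro a _ b _ h
    exact mul_left_cancel h
  · intro g hg
    refine ⟨ρ * g, ?_, by simp⟩
    simp only [mem_filter, mem_univ, true_and] at hg ⊢
    rw [mul_smul]
    exact Finset.smul_finset_subset_smul_finset hg

theorem cnt_le_card (A B : Finset X) : cnt Γ A B ≤ Fintype.card Γ := by
  unfold cnt
  exact card_le_univ _

theorem cnt_empty_left (B : Finset X) : cnt Γ (∅ : Finset X) B = Fintype.card Γ := by
  unfold cnt
  simp [Finset.card_univ]

/-- if `U` can be moved into `G`, everything that can be moved into `U` can be moved into `G` -/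
theorem cnt_le_of_emb {U G : Finset X} (h : ∃ ρ : Γ, ρ • U ⊆ G) (A : Finset X) :
    cnt Γ A U ≤ cnt Γ A G := by
  obtain ⟨ρ, hρ⟩ := h
  rw [← cnt_smul_right ρ A U]
  exact cnt_mono_right hρ

end Vale.Agent.P064
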