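import Mathlib

/-!
# P064: the thresholds of the second Kahn-Kalai conjecture

All graphs live on the vertex set `Fin n` (a graph with fewer vertices is padded by isolated
vertices), so a copy of `F` in `G` is a graph `F' ≤ G` on `Fin n` isomorphic to `F`; it is
determined by its edge set.
-/

namespace Vale.Agent.P064

open Classical

/-- `N(G,F)`: the number of subgraphs of `G` isomorphic to `F` -/
noncomputable def copies {n : ℕ} (G F : SimpleGraph (Fin n)) : ℕ :=
  Set.ncard {F' : SimpleGraph (Fin n) | F' ≤ G ∧ Nonempty (F' ≃g F)}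

/-- the probability that the binomial random graph `G(n,p)` equals `G` -/
noncomputable def gnp (n : ℕ) (p : ℝ) (G : SimpleGraph (Fin n)) : ℝ :=
  p ^ G.edgeSet.ncard * (1 - p) ^ (n.choose 2 - G.edgeSet.ncard)

/-- the expectation of `N(G(n,p),F)` -/
noncomputable def expCopies (n : ℕ) (p : ℝ) (F : SimpleGraph (Fin n)) : ℝ :=
  ∑ G : SimpleGraph (Fin n), gnp n p G * (copies G F : ℝ)

/-- the probability that `G(n,p)` contains a copy of `H` -/
noncomputable def probContains (n : ℕ) (p : ℝ) (H : SimpleGraph (Fin n)) : ℝ :=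
  ∑ G : SimpleGraph (Fin n), if 0 < copies G H then gnp n p G else 0

/-- the threshold `p_c(n,H)` -/
noncomputable def pc (n : ℕ) (H : SimpleGraph (Fin n)) : ℝ :=
  sInf {p : ℝ | 0 ≤ p ∧ p ≤ 1 ∧ 1 / 2 ≤ probContains n p H}

/-- the subgraph expectation threshold `p_E(n,H)` -/
noncomputable def pE (n : ℕ) (H : SimpleGraph (Fin n)) : ℝ :=
  sInf {p : ℝ | 0 ≤ p ∧ p ≤ 1 ∧ ∀ F : SimpleGraph (Fin n), F ≤ H → 1 / 2 ≤ expCopies n p F}

/-- the modified threshold (written p_E with a tilde in the problem) -/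
noncomputable def pEt (n : ℕ) (H : SimpleGraph (Fin n)) : ℝ :=
  sInf {p : ℝ | 0 ≤ p ∧ p ≤ 1 ∧
    ∀ F : SimpleGraph (Fin n), F ≤ H → (copies H F : ℝ) / 2 ≤ expCopies n p F}

end Vale.Agent.P064
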