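import Vale.Agent.P064.Bern

/-!
# P064, part II: one round of the fragment argument (Park-Pham style, spread version)

Paper proof of `one_round`.  Fix `W ⊆ X₀` and a bad `g ∈ A` (not `Good`).  Among the `g' ∈ A` with
`S g' ⊆ S g ∪ W` (there is one: `g` itself) choose one minimising `|S g' \ W|` and put
`T = S g' \ W`; then `|T| > ℓ'`, `T ⊆ S g`, `T` is disjoint from `W`, and `Z = W ∪ T` contains
`S g'`.  For every `Z` containing some `S h`, `h ∈ A`, fix one such `h = pick Z`.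
Claim: `T ⊆ S (pick Z)`.  Indeed `S (pick Z) ⊆ Z = W ∪ T ⊆ S g ∪ W`, so `pick Z` is a candidate,
`S (pick Z) \ W ⊆ T`, and by minimality of `|T|` equality holds.
Hence (indicator sums)
`∑_W bern W ∑_{g bad} μ g ≤ ∑_W ∑_{T ⊆ X₀, T disjoint W, T ⊆ S (pick (W ∪ T)), |T| > ℓ'} bern W ∑_{g : T ⊆ S g} μ g`
`≤ ∑_W ∑_T bern (W ∪ T) p^(-|T|) κ^|T|` (lemma `bern_le_bern_union` and spread), and for fixed `T`
the map `W ↦ Z = W ∪ T` is injective on sets disjoint from `T`, so this is at most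
`∑_Z bern Z ∑_{T ⊆ S (pick Z), |T| > ℓ'} (κ/p)^|T| ≤ ∑_Z bern Z * 2^ℓ (κ/p)^(ℓ'+1) = 2^ℓ (κ/p)^(ℓ'+1)`.
-/

namespace Vale.Agent.P064

open Finset

variable {α I : Type*} [DecidableEq α] [DecidableEq I]

/-- the weighted family `(S g)_{g ∈ A}` with weights `μ` is `κ`-spread (total mass at most one) -/
def Spread (A : Finset I) (S : I → Finset α) (μ : I → ℝ) (κ : ℝ) : Prop :=
  ∀ T : Finset α, ∑ g ∈ A.filter (fun g => T ⊆ S g), μ g ≤ κ ^ T.card

/-- `g` is good for `W` if some member of the family inside `S g ∪ W` has at most `ℓ'` elements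
outside `W` -/
def Good (A : Finset I) (S : I → Finset α) (ℓ' : ℕ) (W : Finset α) (g : I) : Prop :=
  ∃ g' ∈ A, S g' ⊆ S g ∪ W ∧ (S g' \ W).card ≤ ℓ'

/-- combinatorial heart: a bad `g` has a large fragment `T ⊆ S g` disjoint from `W` which lies
inside every member of the family contained in `W ∪ T`. -/
theorem exists_fragment (A : Finset I) (S : I → Finset α) (ℓ' : ℕ) (W : Finset α) (g : I)
    (hg : g ∈ A) (hbad : ¬ Good A S ℓ' W g) :
    ∃ T : Finset α, T ⊆ S g ∧ Disjoint W T ∧ ℓ' + 1 ≤ T.card ∧ (∃ h ∈ A, S h ⊆ W ∪ T) ∧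
      ∀ h ∈ A, S h ⊆ W ∪ T → T ⊆ S h := by
  classical
  have hne : (A.filter (fun g' => S g' ⊆ S g ∪ W)).Nonempty :=
    ⟨g, by simp [hg, subset_union_left]⟩
  obtain ⟨g', hg', hmin⟩ := exists_min_image _ (fun g' => (S g' \ W).card) hne
  rw [mem_filter] at hg'
  refine ⟨S g' \ W, ?_, ?_, ?_, ⟨g', hg'.1, ?_⟩, ?_⟩
  · intro x hx
    rw [mem_sdiff] at hx
    have := hg'.2 hx.1
    rw [mem_union] at this
    exact this.resolve_right hx.2
  · exact disjoint_sdiff
  · by_contra hlt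
    exact hbad ⟨g', hg'.1, hg'.2, by omega⟩
  · intro x hx
    by_cases hxW : x ∈ W
    · exact mem_union_left _ hxW
    · exact mem_union_right _ (mem_sdiff.2 ⟨hx, hxW⟩)
  · intro h hh hsub
    have hcand : S h ⊆ S g ∪ W := by
      intro x hx
      have := hsub hx
      rw [mem_union, mem_sdiff] at this
      rcases this with h1 | h1
      · exact mem_union_right _ h1
      · exact hg'.2 h1.1
    have hle := hmin h (mem_filter.2 ⟨hh, hcand⟩)
    have hsub2 : S h \ W ⊆ S g' \ W := by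
      intro x hx
      rw [mem_sdiff] at hx
      have := hsub hx.1
      rw [mem_union] at this
      exact this.resolve_left hx.2
    have heq : S h \ W = S g' \ W := eq_of_subset_of_card_le hsub2 hle
    rw [← heq]
    exact sdiff_subset

open Classical in
theorem one_round (X₀ : Finset α) (A : Finset I) (S : I → Finset α) (μ : I → ℝ)
    (hμ : ∀ g, 0 ≤ μ g) (hS : ∀ g ∈ A, S g ⊆ X₀) (ℓ ℓ' : ℕ) (hℓ : ∀ g ∈ A, (S g).card ≤ ℓ)
    (κ p : ℝ) (hκ : 0 ≤ κ) (hp0 : 0 < p) (hp1 : p ≤ 1) (hκp : κ ≤ p)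
    (hsp : Spread A S μ κ) :
    Ex X₀ p (fun W => ∑ g ∈ A.filter (fun g => ¬ Good A S ℓ' W g), μ g)
      ≤ 2 ^ ℓ * (κ / p) ^ (ℓ' + 1) := by
  -- the chosen member inside `Z`
  obtain ⟨P, hPcard, hP⟩ : ∃ P : Finset α → Finset α, (∀ Z, (P Z).card ≤ ℓ) ∧
      ∀ Z, (∃ h ∈ A, S h ⊆ Z) → ∃ h ∈ A, S h ⊆ Z ∧ P Z = S h := by
    refine ⟨fun Z => if h : ∃ h ∈ A, S h ⊆ Z then S (Classical.choose h) else ∅, ?_, ?_⟩
    · intro Z
      by_cases h : ∃ h ∈ A, S h ⊆ Z
      · simp only [h, dif_pos]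
        exact hℓ _ (Classical.choose_spec h).1
      · simp [h]
    · intro Z h
      refine ⟨Classical.choose h, (Classical.choose_spec h).1, (Classical.choose_spec h).2, ?_⟩
      simp only [h, dif_pos]
  set c : ℝ := κ / p with hc
  have hc0 : 0 ≤ c := div_nonneg hκ hp0.le
  have hc1 : c ≤ 1 := (div_le_one hp0).2 hκp
  have hb : ∀ W, 0 ≤ bern X₀ p W := fun W => bern_nonneg X₀ W hp0.le hp1
  set pw := X₀.powerset with hpw
  -- validity of a fragment
  let valid : Finset α → Finset α → Prop :=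
    fun W T => Disjoint W T ∧ ℓ' + 1 ≤ T.card ∧ T ⊆ P (W ∪ T)
  -- step 1
  have step1 : ∀ W ∈ pw, ∑ g ∈ A.filter (fun g => ¬ Good A S ℓ' W g), μ g
      ≤ ∑ T ∈ pw, if valid W T then κ ^ T.card else 0 := by
    intro W _
    calc ∑ g ∈ A.filter (fun g => ¬ Good A S ℓ' W g), μ g
        ≤ ∑ g ∈ A.filter (fun g => ¬ Good A S ℓ' W g),
            ∑ T ∈ pw, if valid W T ∧ T ⊆ S g then μ g else 0 := by
          apply sum_le_sum
          intro g hg
          rw [mem_filter] at hg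
          obtain ⟨T, hT1, hT2, hT3, hT4, hT5⟩ := exists_fragment A S ℓ' W g hg.1 hg.2
          obtain ⟨h, hh, hhs, hPh⟩ := hP _ hT4
          have hTpw : T ∈ pw := mem_powerset.2 (hT1.trans (hS g hg.1))
          have hval : valid W T ∧ T ⊆ S g := ⟨⟨hT2, hT3, by rw [hPh]; exact hT5 h hh hhs⟩, hT1⟩
          calc μ g = if valid W T ∧ T ⊆ S g then μ g else 0 := by rw [if_pos hval]
            _ ≤ _ := single_le_sum (f := fun T => if valid W T ∧ T ⊆ S g then μ g else 0)
                  (fun T _ => by split_ifs <;> simp [hμ g]) hTpw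
      _ ≤ ∑ g ∈ A, ∑ T ∈ pw, if valid W T ∧ T ⊆ S g then μ g else 0 := by
          apply sum_le_sum_of_subset_of_nonneg (filter_subset _ _)
          intro g _ _
          exact sum_nonneg (fun T _ => by split_ifs <;> simp [hμ g])
      _ = ∑ T ∈ pw, ∑ g ∈ A, if valid W T ∧ T ⊆ S g then μ g else 0 := sum_comm
      _ ≤ ∑ T ∈ pw, if valid W T then κ ^ T.card else 0 := by
          apply sum_le_sum
          intro T _
          by_cases hv : valid W T
          · simp only [hv, true_and, if_true]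
            rw [← sum_filter]
            exact hsp T
          · simp [hv]
  -- step 2 and 3
  have step2 : ∀ W ∈ pw, ∀ T ∈ pw, bern X₀ p W * (if valid W T then κ ^ T.card else 0)
      ≤ if valid W T then bern X₀ p (W ∪ T) * c ^ T.card else 0 := by
    intro W hW T hT
    by_cases hv : valid W T
    · simp only [hv, if_true]
      have h1 := bern_le_bern_union (mem_powerset.1 hW) (mem_powerset.1 hT) hv.1 hp0 hp1
      have h2 : κ ^ T.card = p ^ T.card * c ^ T.card := by
        rw [← mul_pow, hc, mul_div_cancel₀ _ hp0.ne']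
      rw [h2, ← mul_assoc]
      exact mul_le_mul_of_nonneg_right h1 (pow_nonneg hc0 _)
    · simp [hv]
  -- step 4: reindexing for fixed `T`
  have step3 : ∀ T ∈ pw, ∑ W ∈ pw, (if valid W T then bern X₀ p (W ∪ T) * c ^ T.card else 0)
      ≤ ∑ Z ∈ pw, if ℓ' + 1 ≤ T.card ∧ T ⊆ P Z then bern X₀ p Z * c ^ T.card else 0 := by
    intro T hT
    set hfun : Finset α → ℝ :=
      fun Z => if ℓ' + 1 ≤ T.card ∧ T ⊆ P Z then bern X₀ p Z * c ^ T.card else 0 with hhfun
    have hnn : ∀ Z, 0 ≤ hfun Z := by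
      intro Z
      simp only [hhfun]
      split_ifs
      · exact mul_nonneg (hb Z) (pow_nonneg hc0 _)
      · exact le_rfl
    calc ∑ W ∈ pw, (if valid W T then bern X₀ p (W ∪ T) * c ^ T.card else 0)
        = ∑ W ∈ pw.filter (fun W => valid W T), bern X₀ p (W ∪ T) * c ^ T.card := by
          rw [sum_filter]
      _ = ∑ W ∈ pw.filter (fun W => valid W T), hfun (W ∪ T) := by
          apply sum_congr rfl
          intro W hW
          rw [mem_filter] at hW
          simp only [hhfun]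
          rw [if_pos ⟨hW.2.2.1, hW.2.2.2⟩]
      _ = ∑ Z ∈ (pw.filter (fun W => valid W T)).image (fun W => W ∪ T), hfun Z := by
          rw [sum_image]
          intro W hW W' hW' heq
          have hW := (mem_filter.1 (mem_coe.1 hW)).2.1
          have hW' := (mem_filter.1 (mem_coe.1 hW')).2.1
          have h1 : (W ∪ T) \ T = W := by
            rw [union_sdiff_right]; exact sdiff_eq_self_of_disjoint hW
          have h2 : (W' ∪ T) \ T = W' := by
            rw [union_sdiff_right]; exact sdiff_eq_self_of_disjoint hW'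
          rw [← h1, ← h2]
          simp only at heq
          rw [heq]
      _ ≤ ∑ Z ∈ pw, hfun Z := by
          apply sum_le_sum_of_subset_of_nonneg
          · intro Z hZ
            rw [mem_image] at hZ
            obtain ⟨W, hW, rfl⟩ := hZ
            rw [mem_filter] at hW
            exact mem_powerset.2 (union_subset (mem_powerset.1 hW.1) (mem_powerset.1 hT))
          · intro Z _ _
            exact hnn Z
  -- step 5: counting the fragments inside `P Z`
  have step4 : ∀ Z ∈ pw, ∑ T ∈ pw, (if ℓ' + 1 ≤ T.card ∧ T ⊆ P Z then bern X₀ p Z * c ^ T.card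
      else 0) ≤ bern X₀ p Z * (2 ^ ℓ * c ^ (ℓ' + 1)) := by
    intro Z _
    calc ∑ T ∈ pw, (if ℓ' + 1 ≤ T.card ∧ T ⊆ P Z then bern X₀ p Z * c ^ T.card else 0)
        = ∑ T ∈ pw.filter (fun T => ℓ' + 1 ≤ T.card ∧ T ⊆ P Z), bern X₀ p Z * c ^ T.card := by
          rw [sum_filter]
      _ ≤ ∑ T ∈ pw.filter (fun T => ℓ' + 1 ≤ T.card ∧ T ⊆ P Z),
            bern X₀ p Z * c ^ (ℓ' + 1) := by
          apply sum_le_sum
          intro T hT
          rw [mem_filter] at hT
          exact mul_le_mul_of_nonneg_left (pow_le_pow_of_le_one hc0 hc1 hT.2.1) (hb Z)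
      _ ≤ ∑ T ∈ (P Z).powerset, bern X₀ p Z * c ^ (ℓ' + 1) := by
          apply sum_le_sum_of_subset_of_nonneg
          · intro T hT
            rw [mem_filter] at hT
            exact mem_powerset.2 hT.2.2
          · intro T _ _
            exact mul_nonneg (hb Z) (pow_nonneg hc0 _)
      _ = 2 ^ (P Z).card * (bern X₀ p Z * c ^ (ℓ' + 1)) := by
          rw [sum_const, card_powerset, nsmul_eq_mul]
          push_cast
          ring
      _ ≤ 2 ^ ℓ * (bern X₀ p Z * c ^ (ℓ' + 1)) := by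
          apply mul_le_mul_of_nonneg_right
          · exact pow_le_pow_right₀ (by norm_num) (hPcard Z)
          · exact mul_nonneg (hb Z) (pow_nonneg hc0 _)
      _ = bern X₀ p Z * (2 ^ ℓ * c ^ (ℓ' + 1)) := by ring
  calc Ex X₀ p (fun W => ∑ g ∈ A.filter (fun g => ¬ Good A S ℓ' W g), μ g)
      = ∑ W ∈ pw, bern X₀ p W * ∑ g ∈ A.filter (fun g => ¬ Good A S ℓ' W g), μ g := rfl
    _ ≤ ∑ W ∈ pw, bern X₀ p W * ∑ T ∈ pw, (if valid W T then κ ^ T.card else 0) :=
        sum_le_sum (fun W hW => mul_le_mul_of_nonneg_left (step1 W hW) (hb W))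
    _ = ∑ W ∈ pw, ∑ T ∈ pw, bern X₀ p W * (if valid W T then κ ^ T.card else 0) := by
        simp only [mul_sum]
    _ ≤ ∑ W ∈ pw, ∑ T ∈ pw, (if valid W T then bern X₀ p (W ∪ T) * c ^ T.card else 0) :=
        sum_le_sum (fun W hW => sum_le_sum (fun T hT => step2 W hW T hT))
    _ = ∑ T ∈ pw, ∑ W ∈ pw, (if valid W T then bern X₀ p (W ∪ T) * c ^ T.card else 0) :=
        sum_comm
    _ ≤ ∑ T ∈ pw, ∑ Z ∈ pw,
          (if ℓ' + 1 ≤ T.card ∧ T ⊆ P Z then bern X₀ p Z * c ^ T.card else 0) :=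
        sum_le_sum step3
    _ = ∑ Z ∈ pw, ∑ T ∈ pw,
          (if ℓ' + 1 ≤ T.card ∧ T ⊆ P Z then bern X₀ p Z * c ^ T.card else 0) := sum_comm
    _ ≤ ∑ Z ∈ pw, bern X₀ p Z * (2 ^ ℓ * c ^ (ℓ' + 1)) := sum_le_sum step4
    _ = Ex X₀ p (fun _ => 2 ^ ℓ * c ^ (ℓ' + 1)) := rfl
    _ = 2 ^ ℓ * c ^ (ℓ' + 1) := Ex_const X₀ p _

end Vale.Agent.P064
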