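import Vale.Agent.P064.Core

/-!
# P064: orbit counting, `cnt U G = orb U G * cnt U U`
-/

namespace Vale.Agent.P064

open Finset
open scoped Pointwise

variable (Γ : Type*) {X : Type*} [Group Γ] [Fintype Γ] [DecidableEq X] [MulAction Γ X]

open Classical in
/-- number of subsets of `G` in the orbit of `U` -/
noncomputable def orb (U G : Finset X) : ℕ :=
  (G.powerset.filter (fun S => ∃ g : Γ, g • U = S)).card

variable {Γ}

theorem cnt_self (U : Finset X) :
    cnt Γ U U = (univ.filter (fun g : Γ => g • U = U)).card := by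
  unfold cnt
  congr 1
  ext g
  simp only [mem_filter, mem_univ, true_and]
  constructor
  · intro h
    exact eq_of_subset_of_card_le h (by simp)
  · intro h
    rw [h]

theorem card_fiber_eq (U : Finset X) (g₀ : Γ) :
    (univ.filter (fun g : Γ => g • U = g₀ • U)).card = cnt Γ U U := by
  rw [cnt_self]
  apply card_bij (fun g _ => g₀⁻¹ * g)
  · intro g hg
    simp only [mem_filter, mem_univ, true_and] at hg ⊢
    rw [mul_smul, hg, inv_smul_smul]
  · intro a _ b _ h
    exact mul_left_cancel h
  · intro g hg
    refine ⟨g₀ * g, ?_, by simp⟩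
    simp only [mem_filter, mem_univ, true_and] at hg ⊢
    rw [mul_smul, hg]

theorem cnt_eq_orb_mul (U G : Finset X) : cnt Γ U G = orb Γ U G * cnt Γ U U := by
  classical
  have h1 : cnt Γ U G = ∑ S ∈ G.powerset.filter (fun S => ∃ g : Γ, g • U = S),
      ((univ.filter (fun g : Γ => g • U ⊆ G)).filter (fun g => g • U = S)).card := by
    unfold cnt
    apply card_eq_sum_card_fiberwise
    intro g hg
    have hg' : g • U ⊆ G := by simpa using hg
    have : g • U ∈ G.powerset.filter (fun S => ∃ g : Γ, g • U = S) :=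
      mem_filter.mpr ⟨mem_powerset.mpr hg', g, rfl⟩
    exact_mod_cast this
  rw [h1, orb, ← smul_eq_mul, ← sum_const]
  apply sum_congr rfl
  intro S hS
  rw [mem_filter, mem_powerset] at hS
  obtain ⟨hSG, g₀, rfl⟩ := hS
  rw [← card_fiber_eq U g₀]
  congr 1
  ext g
  simp only [mem_filter, mem_univ, true_and]
  constructor
  · intro h; exact h.2
  · intro h; exact ⟨h ▸ hSG, h⟩

theorem cnt_self_pos (U : Finset X) : 0 < cnt Γ U U := by
  unfold cnt
  apply card_pos.mpr
  exact ⟨1, by simp⟩

end Vale.Agent.P064
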