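import Vale.Agent.P064.Defs
import Vale.Agent.P064.Orbit
import Vale.Agent.P064.Bern

/-!
# P064, part III: graphs on `Fin n` as sets of unordered pairs
-/

namespace Vale.Agent.P064

open Finset Classical
open scoped Pointwise

/-- permutations act on unordered pairs -/
noncomputable instance sym2Action (V : Type*) : MulAction (Equiv.Perm V) (Sym2 V) where
  smul σ e := Sym2.map σ e
  one_smul e := by
    show Sym2.map (⇑(1 : Equiv.Perm V)) e = e
    have : (⇑(1 : Equiv.Perm V)) = id := rfl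
    rw [this, Sym2.map_id]; rfl
  mul_smul σ τ e := by
    show Sym2.map (⇑(σ * τ)) e = Sym2.map σ (Sym2.map τ e)
    rw [Sym2.map_map]; rfl

theorem smul_mk {V : Type*} (σ : Equiv.Perm V) (a b : V) : σ • s(a, b) = s(σ a, σ b) := rfl

variable {n : ℕ}

/-- the edge set of a graph as a finite set -/
noncomputable def eF (G : SimpleGraph (Fin n)) : Finset (Sym2 (Fin n)) :=
  univ.filter (fun e => e ∈ G.edgeSet)

@[simp] theorem mem_eF (G : SimpleGraph (Fin n)) (e : Sym2 (Fin n)) : e ∈ eF G ↔ e ∈ G.edgeSet := by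
  simp [eF]

theorem coe_eF (G : SimpleGraph (Fin n)) : (↑(eF G) : Set (Sym2 (Fin n))) = G.edgeSet := by
  ext e; simp

theorem card_eF (G : SimpleGraph (Fin n)) : (eF G).card = G.edgeSet.ncard := by
  rw [← coe_eF, Set.ncard_coe_finset]

theorem eF_subset_iff (G G' : SimpleGraph (Fin n)) : eF G ⊆ eF G' ↔ G ≤ G' := by
  rw [← SimpleGraph.edgeSet_subset_edgeSet, ← coe_eF, ← coe_eF, coe_subset]

theorem eF_injective : Function.Injective (eF : SimpleGraph (Fin n) → _) := by
  intro G G' h
  apply SimpleGraph.edgeSet_injective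
  rw [← coe_eF, ← coe_eF, h]

/-- the edges of the complete graph -/
noncomputable def EK (n : ℕ) : Finset (Sym2 (Fin n)) := eF (⊤ : SimpleGraph (Fin n))

theorem card_EK (n : ℕ) : (EK n).card = n.choose 2 := by
  have h : EK n = (⊤ : SimpleGraph (Fin n)).edgeFinset := by
    ext e; simp [EK]
  rw [h, SimpleGraph.card_edgeFinset_top_eq_card_choose_two, Fintype.card_fin]

theorem eF_subset_EK (G : SimpleGraph (Fin n)) : eF G ⊆ EK n := by
  rw [EK, eF_subset_iff]; exact le_top

theorem mem_EK (e : Sym2 (Fin n)) : e ∈ EK n ↔ ¬ e.IsDiag := by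
  simp [EK]

/-- every subset of `EK n` is the edge set of a graph -/
theorem exists_graph {S : Finset (Sym2 (Fin n))} (hS : S ⊆ EK n) :
    eF (SimpleGraph.fromEdgeSet (↑S : Set (Sym2 (Fin n)))) = S := by
  ext e
  rw [mem_eF, SimpleGraph.edgeSet_fromEdgeSet]
  simp only [Set.mem_sdiff, mem_coe]
  constructor
  · intro h; exact h.1
  · intro h; exact ⟨h, (mem_EK e).mp (hS h)⟩

theorem sum_graphs (φ : Finset (Sym2 (Fin n)) → ℝ) :
    ∑ G : SimpleGraph (Fin n), φ (eF G) = ∑ S ∈ (EK n).powerset, φ S := by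
  apply sum_bij (fun G _ => eF G)
  · intro G _; exact mem_powerset.mpr (eF_subset_EK G)
  · intro G _ G' _ h; exact eF_injective h
  · intro S hS
    exact ⟨SimpleGraph.fromEdgeSet (↑S : Set (Sym2 (Fin n))), mem_univ _,
      exists_graph (mem_powerset.mp hS)⟩
  · intro G _; rfl

theorem smul_EK (σ : Equiv.Perm (Fin n)) : σ • EK n = EK n := by
  apply eq_of_subset_of_card_le _ (by simp)
  intro e he
  obtain ⟨e', he', rfl⟩ := Finset.mem_smul_finset.mp he
  rw [mem_EK] at he' ⊢
  induction e' with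
  | _ a b =>
    rw [smul_mk]
    simp only [Sym2.mk_isDiag_iff] at he' ⊢
    intro h; exact he' (σ.injective h)

theorem smul_subset_EK (σ : Equiv.Perm (Fin n)) {S : Finset (Sym2 (Fin n))} (hS : S ⊆ EK n) :
    σ • S ⊆ EK n := by
  rw [← smul_EK σ]
  exact Finset.smul_finset_subset_smul_finset hS

/-- isomorphism of graphs on `Fin n` in terms of the action on edge sets -/
theorem iso_iff (F' F : SimpleGraph (Fin n)) :
    Nonempty (F' ≃g F) ↔ ∃ σ : Equiv.Perm (Fin n), σ • eF F = eF F' := by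
  constructor
  · rintro ⟨φ⟩
    refine ⟨φ.symm.toEquiv, ?_⟩
    ext e
    rw [Finset.mem_smul_finset]
    constructor
    · rintro ⟨e', he', rfl⟩
      induction e' with
      | _ a b =>
        rw [smul_mk, mem_eF, SimpleGraph.mem_edgeSet]
        rw [mem_eF, SimpleGraph.mem_edgeSet] at he'
        exact φ.symm.map_rel_iff.mpr he'
    · intro he
      induction e with
      | _ a b =>
        refine ⟨s(φ a, φ b), ?_, ?_⟩
        · rw [mem_eF, SimpleGraph.mem_edgeSet] at he ⊢
          exact φ.map_rel_iff.mpr he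
        · rw [smul_mk]; simp
  · rintro ⟨σ, hσ⟩
    refine ⟨(⟨σ, ?_⟩ : F ≃g F').symm⟩
    intro a b
    have h1 : F'.Adj (σ a) (σ b) ↔ s(σ a, σ b) ∈ eF F' := by simp
    have h2 : F.Adj a b ↔ s(a, b) ∈ eF F := by simp
    rw [h1, h2, ← hσ, ← smul_mk, Finset.smul_mem_smul_finset_iff]

theorem copies_eq_orb (G F : SimpleGraph (Fin n)) :
    copies G F = orb (Equiv.Perm (Fin n)) (eF F) (eF G) := by
  unfold copies orb
  rw [← Set.ncard_coe_finset]
  apply Set.ncard_congr (fun F' _ => eF F')
  · intro F' hF'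
    simp only [coe_filter, mem_powerset]
    exact ⟨(eF_subset_iff _ _).mpr hF'.1, (iso_iff F' F).mp hF'.2⟩
  · intro a b _ _ h; exact eF_injective h
  · intro S hS
    simp only [coe_filter, mem_powerset] at hS
    have hSK : S ⊆ EK n := hS.1.trans (eF_subset_EK G)
    refine ⟨SimpleGraph.fromEdgeSet (↑S : Set (Sym2 (Fin n))), ⟨?_, ?_⟩, exists_graph hSK⟩
    · rw [← eF_subset_iff, exists_graph hSK]; exact hS.1
    · rw [iso_iff, exists_graph hSK]; exact hS.2

theorem gnp_eq_bern (p : ℝ) (G : SimpleGraph (Fin n)) : gnp n p G = bern (EK n) p (eF G) := by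
  unfold gnp bern
  rw [card_EK, card_eF]

end Vale.Agent.P064
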