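import Vale.Agent.P064.NoLight

/-!
# P064, part I: the induction on the size of the host
-/

namespace Vale.Agent.P064

open Finset
open scoped Pointwise

variable {Γ : Type*} {X : Type*} [Group Γ] [Fintype Γ] [DecidableEq X] [MulAction Γ X]

theorem exp_neg_le_one_sub_half {y : ℝ} (h0 : 0 ≤ y) (h1 : y ≤ 1) :
    Real.exp (-y) ≤ 1 - y / 2 := by
  have h2 : 1 + y ≤ Real.exp y := by
    have := Real.add_one_le_exp y; linarith
  rw [Real.exp_neg]
  have h3 : (Real.exp y)⁻¹ ≤ (1 + y)⁻¹ := inv_anti₀ (by linarith) h2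
  refine h3.trans ?_
  rw [inv_eq_one_div, div_le_iff₀ (by linarith)]
  nlinarith

theorem key_ineq (s f : ℕ) (hf : 1 ≤ f) (hfs : f ≤ s) {γ : ℝ} (hγ : 0 < γ) (hγ2 : γ ≤ 1 / 2) :
    (((s : ℝ) - 1) ^ (2 * γ)) ^ f ≤ (1 - γ * f / s) * ((s : ℝ) ^ (2 * γ)) ^ f := by
  have hs1 : (1 : ℝ) ≤ s := by exact_mod_cast hf.trans hfs
  have hspos : (0 : ℝ) < s := by linarith
  have hfpos : (0 : ℝ) < f := by exact_mod_cast hf
  have hfs' : (f : ℝ) ≤ s := by exact_mod_cast hfs
  set u : ℝ := ((s : ℝ) - 1) / s with hu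
  have hu0 : 0 ≤ u := div_nonneg (by linarith) hspos.le
  have hsu : (s : ℝ) - 1 = s * u := by rw [hu]; field_simp
  have hy0 : 0 ≤ 2 * γ * f / s := by positivity
  have hy1 : 2 * γ * f / s ≤ 1 := by
    rw [div_le_one hspos]; nlinarith
  have hmain : (u ^ (2 * γ)) ^ f ≤ 1 - γ * f / s := by
    rcases hu0.eq_or_lt with h0 | hpos
    · rw [← h0, Real.zero_rpow (by linarith), zero_pow (by omega)]
      have : γ * f / s ≤ 1 / 2 := by linarith [hy1, show 2 * γ * f / s = 2 * (γ * f / s) by ring]
      linarith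
    · have h1 : (u ^ (2 * γ)) ^ f = Real.exp (Real.log u * (2 * γ) * f) := by
        rw [Real.rpow_def_of_pos hpos, ← Real.exp_nat_mul]
        congr 1; ring
      have h2 : Real.log u ≤ -(1 / s) := by
        have := Real.log_le_sub_one_of_pos hpos
        have h3 : u - 1 = -(1 / s) := by rw [hu]; field_simp; ring
        linarith
      have h4 : Real.log u * (2 * γ) * f ≤ -(2 * γ * f / s) := by
        have : Real.log u * (2 * γ * f) ≤ -(1 / s) * (2 * γ * f) :=
          mul_le_mul_of_nonneg_right h2 (by positivity)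
        calc Real.log u * (2 * γ) * f = Real.log u * (2 * γ * f) := by ring
          _ ≤ -(1 / s) * (2 * γ * f) := this
          _ = -(2 * γ * f / s) := by ring
      rw [h1]
      calc Real.exp (Real.log u * (2 * γ) * f) ≤ Real.exp (-(2 * γ * f / s)) :=
            Real.exp_le_exp.mpr h4
        _ ≤ 1 - (2 * γ * f / s) / 2 := exp_neg_le_one_sub_half hy0 hy1
        _ = 1 - γ * f / s := by ring
  rw [hsu, Real.mul_rpow hspos.le hu0, mul_pow, mul_comm]
  exact mul_le_mul_of_nonneg_right hmain (by positivity)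

variable [Fintype X]

/-- the normalised ratio of a set `J` in the host `G` -/
noncomputable def ratio (Γ : Type*) {X : Type*} [Group Γ] [Fintype Γ] [DecidableEq X]
    [MulAction Γ X] (q : ℝ) (G J : Finset X) : ℝ :=
  ((cnt Γ J G : ℝ) / Fintype.card Γ) ^ ((J.card : ℝ)⁻¹) / q

omit [Fintype X] in
theorem cnt_eq_ratio {q : ℝ} (hq : 0 < q) (G J : Finset X) (hJ : J.Nonempty) :
    (cnt Γ J G : ℝ) = Fintype.card Γ * (ratio Γ q G J * q) ^ J.card := by
  have hcard : (0 : ℝ) < Fintype.card Γ := by exact_mod_cast Fintype.card_pos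
  unfold ratio
  rw [div_mul_cancel₀ _ hq.ne', Real.rpow_inv_natCast_pow (by positivity)
    (card_pos.mpr hJ).ne']
  field_simp

omit [Fintype X] in
theorem ratio_nonneg {q : ℝ} (hq : 0 < q) (G J : Finset X) : 0 ≤ ratio Γ q G J := by
  unfold ratio
  positivity

theorem core {H : Finset X} {q γ : ℝ} (hyp : Hyp Γ H q) (hq : 0 < q) (hγ : 0 < γ)
    (hγ2 : γ ≤ 1 / 2) :
    ∀ (n : ℕ) (G : Finset X), G.card = n → G ⊆ H → ∀ J : Finset X,
      (cnt Γ J G : ℝ) ≤ Fintype.card Γ * (384 / γ * (G.card : ℝ) ^ (2 * γ) * q) ^ J.card := by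
  classical
  have hcard : (0 : ℝ) < Fintype.card Γ := by exact_mod_cast Fintype.card_pos
  intro n
  induction n with
  | zero =>
    intro G hG0 _ J
    rw [card_eq_zero] at hG0
    subst hG0
    rcases J.eq_empty_or_nonempty with rfl | hJ
    · simp [cnt_empty_left]
    · have : cnt Γ J (∅ : Finset X) = 0 := by
        unfold cnt
        rw [card_eq_zero, filter_eq_empty_iff]
        intro g _ hg
        rw [subset_empty, Finset.smul_finset_eq_empty] at hg
        exact hJ.ne_empty hg
      rw [this]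
      simp only [Nat.cast_zero]
      positivity
  | succ n ih =>
    intro G hGn hGH
    by_contra hcon
    rw [not_forall] at hcon
    obtain ⟨J₀, hJ₀⟩ := hcon
    rw [not_le] at hJ₀
    set B : ℝ := 384 / γ * (G.card : ℝ) ^ (2 * γ) with hB
    have hs1 : 1 ≤ G.card := by omega
    have hs1' : (1 : ℝ) ≤ G.card := by exact_mod_cast hs1
    have hpow1 : (1 : ℝ) ≤ (G.card : ℝ) ^ (2 * γ) := Real.one_le_rpow hs1' (by linarith)
    have hBpos : 0 < B := by positivity
    have hJ₀ne : J₀.Nonempty := by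
      rcases J₀.eq_empty_or_nonempty with rfl | h
      · simp [cnt_empty_left] at hJ₀
      · exact h
    -- the maximiser
    obtain ⟨F, hFmem, hFmax⟩ := Finset.exists_max_image
      ((univ : Finset (Finset X)).filter (fun J => J.Nonempty)) (ratio Γ q G)
      ⟨J₀, by simp [hJ₀ne]⟩
    have hFne : F.Nonempty := (mem_filter.mp hFmem).2
    set Λ : ℝ := ratio Γ q G F with hΛdef
    have hΛB : B < Λ := by
      by_contra h
      rw [not_lt] at h
      have h1 : ratio Γ q G J₀ ≤ B := (hFmax J₀ (by simp [hJ₀ne])).trans h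
      have h2 := cnt_eq_ratio (Γ := Γ) hq G J₀ hJ₀ne
      have h3 : (ratio Γ q G J₀ * q) ^ J₀.card ≤ (B * q) ^ J₀.card := by
        apply pow_le_pow_left₀ (mul_nonneg (ratio_nonneg hq G J₀) hq.le)
        exact mul_le_mul_of_nonneg_right h1 hq.le
      have h4 := mul_le_mul_of_nonneg_left h3 hcard.le
      rw [← h2] at h4
      linarith
    have hΛ0 : 0 < Λ := hBpos.trans hΛB
    have hΛ : ∀ J : Finset X, (cnt Γ J G : ℝ) ≤ Fintype.card Γ * (Λ * q) ^ J.card := by
      intro J
      rcases J.eq_empty_or_nonempty with rfl | hJ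
      · simp [cnt_empty_left]
      · rw [cnt_eq_ratio (Γ := Γ) hq G J hJ]
        apply mul_le_mul_of_nonneg_left _ hcard.le
        apply pow_le_pow_left₀ (mul_nonneg (ratio_nonneg hq G J) hq.le)
        exact mul_le_mul_of_nonneg_right (hFmax J (by simp [hJ])) hq.le
    have hF : (cnt Γ F G : ℝ) = Fintype.card Γ * (Λ * q) ^ F.card :=
      cnt_eq_ratio (Γ := Γ) hq G F hFne
    by_cases hlight : ∀ e ∈ G, (cnt Γ F (G.erase e) : ℝ)
        ≤ (1 - γ * F.card / G.card) * cnt Γ F G
    · have h1 := noLight hyp hGH hq hγ (by linarith) hΛ0 hΛ hF hFne hlight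
      have h2 : 384 / γ ≤ B := by
        rw [hB]
        have : 0 < 384 / γ := by positivity
        nlinarith
      linarith
    · rw [not_forall] at hlight
      obtain ⟨e, he⟩ := hlight
      rw [Classical.not_imp, not_le] at he
      obtain ⟨heG, he⟩ := he
      have hcardE : (G.erase e).card = n := by
        rw [card_erase_of_mem heG]; omega
      have hih := ih (G.erase e) hcardE ((erase_subset _ _).trans hGH) F
      have hmpos : 0 < cnt Γ F G := by
        have : (0 : ℝ) < cnt Γ F G := by rw [hF]; positivity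
        exact_mod_cast this
      have hfs : F.card ≤ G.card := card_le_of_cnt_pos hmpos
      have hf1 : 1 ≤ F.card := card_pos.mpr hFne
      have hkey := key_ineq G.card F.card hf1 hfs hγ hγ2
      have hcast : ((G.erase e).card : ℝ) = (G.card : ℝ) - 1 := by
        rw [card_erase_of_mem heG, Nat.cast_sub hs1]; simp
      rw [hcast] at hih
      have hx0 : 0 ≤ 1 - γ * F.card / G.card := by
        have h1 : γ * F.card / G.card ≤ 1 := by
          rw [div_le_one (by linarith)]
          have : (F.card : ℝ) ≤ G.card := by exact_mod_cast hfs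
          nlinarith
        linarith
      -- combine
      have h1 : (1 - γ * F.card / G.card) * (Fintype.card Γ * (B * q) ^ F.card)
          ≤ (1 - γ * F.card / G.card) * cnt Γ F G := by
        apply mul_le_mul_of_nonneg_left _ hx0
        rw [hF]
        apply mul_le_mul_of_nonneg_left _ hcard.le
        apply pow_le_pow_left₀ (by positivity)
        exact mul_le_mul_of_nonneg_right hΛB.le hq.le
      have h2 : (Fintype.card Γ : ℝ) * (384 / γ * ((G.card : ℝ) - 1) ^ (2 * γ) * q) ^ F.card
          ≤ (1 - γ * F.card / G.card) * (Fintype.card Γ * (B * q) ^ F.card) := by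
        have e1 : (384 / γ * ((G.card : ℝ) - 1) ^ (2 * γ) * q) ^ F.card
            = (384 / γ * q) ^ F.card * (((G.card : ℝ) - 1) ^ (2 * γ)) ^ F.card := by
          rw [← mul_pow]; congr 1; ring
        have e2 : (B * q) ^ F.card
            = (384 / γ * q) ^ F.card * ((G.card : ℝ) ^ (2 * γ)) ^ F.card := by
          rw [hB, ← mul_pow]; congr 1; ring
        rw [e1, e2]
        have hc : 0 ≤ (Fintype.card Γ : ℝ) * (384 / γ * q) ^ F.card := by positivity
        have := mul_le_mul_of_nonneg_left hkey hc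
        calc _ = (Fintype.card Γ : ℝ) * (384 / γ * q) ^ F.card
              * (((G.card : ℝ) - 1) ^ (2 * γ)) ^ F.card := by ring
          _ ≤ _ := this
          _ = _ := by ring
      linarith

/-- **Main counting theorem.** -/
theorem main_count {H : Finset X} {q γ : ℝ} (hyp : Hyp Γ H q) (hq : 0 < q) (hγ : 0 < γ)
    (hγ2 : γ ≤ 1 / 2) (J : Finset X) :
    (cnt Γ J H : ℝ) ≤ Fintype.card Γ * (384 / γ * (H.card : ℝ) ^ (2 * γ) * q) ^ J.card :=
  core hyp hq hγ hγ2 H.card H rfl (Subset.refl _) J

end Vale.Agent.P064
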