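import Vale.Agent.P064.Trivial

/-!
# P064, part I: sums over `k`-tuples of group elements

`iter Γ F k φ U` is the sum of `φ (U ∪ g₁ F ∪ ... ∪ g_k F)` over all `k`-tuples.
-/

namespace Vale.Agent.P064

open Finset
open scoped Pointwise

variable (Γ : Type*) {X : Type*} [Group Γ] [Fintype Γ] [DecidableEq X] [MulAction Γ X]

/-- sum of `φ (U ∪ g₁ F ∪ ... ∪ g_k F)` over all `k`-tuples of group elements -/
noncomputable def iter (F : Finset X) : ℕ → (Finset X → ℝ) → Finset X → ℝ
  | 0, φ, U => φ U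
  | k + 1, φ, U => ∑ g : Γ, iter F k φ (U ∪ g • F)

variable {Γ}

@[simp] theorem iter_zero (F : Finset X) (φ : Finset X → ℝ) (U : Finset X) :
    iter Γ F 0 φ U = φ U := rfl

theorem iter_succ (F : Finset X) (k : ℕ) (φ : Finset X → ℝ) (U : Finset X) :
    iter Γ F (k + 1) φ U = ∑ g : Γ, iter Γ F k φ (U ∪ g • F) := rfl

theorem iter_mono (F : Finset X) {φ ψ : Finset X → ℝ} (h : ∀ U, φ U ≤ ψ U) (k : ℕ) :
    ∀ U, iter Γ F k φ U ≤ iter Γ F k ψ U := by
  induction k with
  | zero => exact h
  | succ k ih =>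
    intro U
    rw [iter_succ, iter_succ]
    exact sum_le_sum fun g _ => ih _

theorem iter_congr (F : Finset X) {φ ψ : Finset X → ℝ} (h : ∀ U, φ U = ψ U) (k : ℕ) (U) :
    iter Γ F k φ U = iter Γ F k ψ U := by
  have : φ = ψ := funext h
  rw [this]

theorem iter_const_mul (F : Finset X) (c : ℝ) (φ : Finset X → ℝ) (k : ℕ) :
    ∀ U, iter Γ F k (fun V => c * φ V) U = c * iter Γ F k φ U := by
  induction k with
  | zero => intro U; rfl
  | succ k ih =>
    intro U
    rw [iter_succ, iter_succ, mul_sum]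
    exact sum_congr rfl fun g _ => ih _

theorem iter_sum {ι : Type*} (s : Finset ι) (F : Finset X) (φ : ι → Finset X → ℝ) (k : ℕ) :
    ∀ U, iter Γ F k (fun V => ∑ i ∈ s, φ i V) U = ∑ i ∈ s, iter Γ F k (φ i) U := by
  induction k with
  | zero => intro U; rfl
  | succ k ih =>
    intro U
    simp only [iter_succ]
    rw [sum_comm]
    exact sum_congr rfl fun g _ => ih _

theorem iter_add (F : Finset X) (φ ψ : Finset X → ℝ) (k : ℕ) :
    ∀ U, iter Γ F k (fun V => φ V + ψ V) U = iter Γ F k φ U + iter Γ F k ψ U := by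
  induction k with
  | zero => intro U; rfl
  | succ k ih =>
    intro U
    simp only [iter_succ]
    rw [← sum_add_distrib]
    exact sum_congr rfl fun g _ => ih _

theorem iter_nonneg (F : Finset X) {φ : Finset X → ℝ} (h : ∀ U, 0 ≤ φ U) (k : ℕ) :
    ∀ U, 0 ≤ iter Γ F k φ U := by
  induction k with
  | zero => exact h
  | succ k ih =>
    intro U
    rw [iter_succ]
    exact sum_nonneg fun g _ => ih _

/-- equivariance -/
theorem iter_smul (F : Finset X) (ρ : Γ) (φ : Finset X → ℝ) (k : ℕ) :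
    ∀ U, iter Γ F k (fun V => φ (ρ • V)) U = iter Γ F k φ (ρ • U) := by
  induction k with
  | zero => intro U; rfl
  | succ k ih =>
    intro U
    rw [iter_succ, iter_succ]
    rw [← Equiv.sum_comp (Equiv.mulLeft ρ) (fun g => iter Γ F k φ (ρ • U ∪ g • F))]
    apply sum_congr rfl
    intro g _
    rw [ih]
    congr 1
    rw [Finset.smul_finset_union, Equiv.coe_mulLeft, mul_smul]

/-- tuples staying inside `B` -/
theorem iter_subset (F B : Finset X) (k : ℕ) :
    ∀ U, iter Γ F k (fun V => if V ⊆ B then (1 : ℝ) else 0) U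
      = if U ⊆ B then (cnt Γ F B : ℝ) ^ k else 0 := by
  induction k with
  | zero => intro U; simp
  | succ k ih =>
    intro U
    rw [iter_succ]
    simp only [ih]
    by_cases hU : U ⊆ B
    · simp only [hU, if_true, union_subset_iff, true_and]
      rw [← sum_filter, sum_const, nsmul_eq_mul, pow_succ, mul_comm]
      rfl
    · have : ∀ g : Γ, ¬ (U ∪ g • F ⊆ B) := fun g h => hU (subset_union_left.trans h)
      simp [this, hU]

end Vale.Agent.P064
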