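import Vale.Agent.P064.Iter

/-!
# P064, part I: the generating function bound and the transfer identity
-/

namespace Vale.Agent.P064

open Finset
open scoped Pointwise

variable {Γ : Type*} {X : Type*} [Group Γ] [Fintype Γ] [DecidableEq X] [MulAction Γ X]

/-- `U` can be moved into `G` -/
def Emb (Γ : Type*) {X : Type*} [Group Γ] [DecidableEq X] [MulAction Γ X]
    (U G : Finset X) : Prop := ∃ ρ : Γ, ρ • U ⊆ G

theorem Emb.mono {U V G : Finset X} (h : Emb Γ V G) (hUV : U ⊆ V) : Emb Γ U G := by
  obtain ⟨ρ, hρ⟩ := h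
  exact ⟨ρ, (Finset.smul_finset_subset_smul_finset hUV).trans hρ⟩

theorem card_smul_sdiff (g : Γ) (F U : Finset X) :
    ((g • F) \ U).card = F.card - (F.filter (fun ε => g • ε ∈ U)).card := by
  have h1 : (g • F) \ U = g • (F.filter (fun ε => ¬ g • ε ∈ U)) := by
    ext y
    simp only [mem_sdiff, Finset.mem_smul_finset, mem_filter]
    constructor
    · rintro ⟨⟨x, hx, rfl⟩, hy⟩
      exact ⟨x, ⟨hx, hy⟩, rfl⟩
    · rintro ⟨x, ⟨hx, hy⟩, rfl⟩
      exact ⟨⟨x, hx, rfl⟩, hy⟩
  rw [h1, Finset.card_smul_finset]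
  have h2 := Finset.card_filter_add_card_filter_not (s := F) (fun ε => g • ε ∈ U)
  omega

theorem sum_pow_sdiff_le {G U F : Finset X} {a x : ℝ} (ha : 0 ≤ a) (hx : 0 ≤ x)
    (hΛ : ∀ J : Finset X, (cnt Γ J G : ℝ) ≤ Fintype.card Γ * a ^ J.card)
    (hU : Emb Γ U G) :
    ∑ g : Γ, x ^ ((g • F) \ U).card ≤ Fintype.card Γ * (a + x) ^ F.card := by
  classical
  have h1 : ∑ g : Γ, x ^ ((g • F) \ U).card
      = ∑ O ∈ F.powerset, ∑ g ∈ univ.filter (fun g : Γ => F.filter (fun ε => g • ε ∈ U) = O),
          x ^ ((g • F) \ U).card := by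
    rw [sum_fiberwise_of_maps_to]
    intro g _
    exact mem_powerset.mpr (filter_subset _ _)
  rw [h1]
  calc ∑ O ∈ F.powerset, ∑ g ∈ univ.filter (fun g : Γ => F.filter (fun ε => g • ε ∈ U) = O),
          x ^ ((g • F) \ U).card
      ≤ ∑ O ∈ F.powerset, (Fintype.card Γ * a ^ O.card) * x ^ (F.card - O.card) := by
        apply sum_le_sum
        intro O _
        have h2 : ∑ g ∈ univ.filter (fun g : Γ => F.filter (fun ε => g • ε ∈ U) = O),
            x ^ ((g • F) \ U).card
            = ((univ.filter (fun g : Γ => F.filter (fun ε => g • ε ∈ U) = O)).card : ℝ)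
              * x ^ (F.card - O.card) := by
          rw [← nsmul_eq_mul, ← sum_const]
          apply sum_congr rfl
          intro g hg
          rw [mem_filter] at hg
          rw [card_smul_sdiff, hg.2]
        rw [h2]
        apply mul_le_mul_of_nonneg_right _ (pow_nonneg hx _)
        have h3 : (univ.filter (fun g : Γ => F.filter (fun ε => g • ε ∈ U) = O)).card
            ≤ cnt Γ O U := by
          unfold cnt
          apply card_le_card
          intro g hg
          simp only [mem_filter, mem_univ, true_and] at hg ⊢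
          intro y hy
          obtain ⟨ε, hε, rfl⟩ := Finset.mem_smul_finset.mp hy
          rw [← hg, mem_filter] at hε
          exact hε.2
        have h4 : cnt Γ O U ≤ cnt Γ O G := cnt_le_of_emb hU O
        calc ((univ.filter (fun g : Γ => F.filter (fun ε => g • ε ∈ U) = O)).card : ℝ)
            ≤ (cnt Γ O G : ℝ) := by exact_mod_cast h3.trans h4
          _ ≤ _ := hΛ O
    _ = Fintype.card Γ * (a + x) ^ F.card := by
        rw [← Finset.sum_pow_mul_eq_add_pow, mul_sum]
        apply sum_congr rfl
        intro O _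
        ring

open Classical in
/-- weight `x^|U|` on the sets that can be moved into `G` -/
noncomputable def wEmb (Γ : Type*) {X : Type*} [Group Γ] [DecidableEq X] [MulAction Γ X]
    (G : Finset X) (x : ℝ) (U : Finset X) : ℝ := if Emb Γ U G then x ^ U.card else 0

theorem iter_wEmb_eq_zero (F G : Finset X) (x : ℝ) (k : ℕ) :
    ∀ U, ¬ Emb Γ U G → iter Γ F k (wEmb Γ G x) U = 0 := by
  induction k with
  | zero => intro U hU; simp [wEmb, hU]
  | succ k ih =>
    intro U hU
    rw [iter_succ]
    apply sum_eq_zero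
    intro g _
    exact ih _ (fun h => hU (h.mono subset_union_left))

theorem iter_wEmb_le {G F : Finset X} {a x : ℝ} (ha : 0 ≤ a) (hx : 0 ≤ x)
    (hΛ : ∀ J : Finset X, (cnt Γ J G : ℝ) ≤ Fintype.card Γ * a ^ J.card) (k : ℕ) :
    ∀ U, iter Γ F k (wEmb Γ G x) U
      ≤ (Fintype.card Γ * (a + x) ^ F.card) ^ k * x ^ U.card := by
  have hC : (0 : ℝ) ≤ Fintype.card Γ * (a + x) ^ F.card := by positivity
  induction k with
  | zero =>
    intro U
    simp only [iter_zero, pow_zero, one_mul, wEmb]
    split_ifs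
    · exact le_rfl
    · exact pow_nonneg hx _
  | succ k ih =>
    intro U
    by_cases hU : Emb Γ U G
    · rw [iter_succ]
      calc ∑ g : Γ, iter Γ F k (wEmb Γ G x) (U ∪ g • F)
          ≤ ∑ g : Γ, (Fintype.card Γ * (a + x) ^ F.card) ^ k * x ^ (U ∪ g • F).card :=
            sum_le_sum fun g _ => ih _
        _ = (Fintype.card Γ * (a + x) ^ F.card) ^ k * x ^ U.card
              * ∑ g : Γ, x ^ ((g • F) \ U).card := by
            rw [mul_sum]
            apply sum_congr rfl
            intro g _
            have : (U ∪ g • F).card = U.card + ((g • F) \ U).card := by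
              rw [← card_union_of_disjoint disjoint_sdiff, union_sdiff_self_eq_union]
            rw [this, pow_add]
            ring
        _ ≤ (Fintype.card Γ * (a + x) ^ F.card) ^ k * x ^ U.card
              * (Fintype.card Γ * (a + x) ^ F.card) := by
            apply mul_le_mul_of_nonneg_left (sum_pow_sdiff_le ha hx hΛ hU)
            exact mul_nonneg (pow_nonneg hC _) (pow_nonneg hx _)
        _ = _ := by ring
    · rw [iter_wEmb_eq_zero F G x (k + 1) U hU]
      exact mul_nonneg (pow_nonneg hC _) (pow_nonneg hx _)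

/-- the transfer identity: moving a tuple around by the whole group -/
theorem transfer (F G : Finset X) (θ : ℕ → ℝ) (k : ℕ) :
    (Fintype.card Γ : ℝ) * iter Γ F k (fun U => (if U ⊆ G then (1 : ℝ) else 0) * θ U.card) ∅
      = iter Γ F k (fun U => (cnt Γ U G : ℝ) * θ U.card) ∅ := by
  classical
  have h1 : ∀ U : Finset X, (cnt Γ U G : ℝ) * θ U.card
      = ∑ ρ : Γ, (if ρ • U ⊆ G then (1 : ℝ) else 0) * θ (ρ • U).card := by
    intro U
    simp only [Finset.card_smul_finset]
    rw [← sum_mul]
    congr 1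
    unfold cnt
    rw [card_filter]
    push_cast
    rfl
  rw [iter_congr F h1, iter_sum]
  have h2 : ∀ ρ : Γ, iter Γ F k
      (fun V => (if ρ • V ⊆ G then (1 : ℝ) else 0) * θ (ρ • V).card) ∅
      = iter Γ F k (fun U => (if U ⊆ G then (1 : ℝ) else 0) * θ U.card) ∅ := by
    intro ρ
    have := iter_smul F ρ (fun U => (if U ⊆ G then (1 : ℝ) else 0) * θ U.card) k ∅
    rw [Finset.smul_finset_empty] at this
    exact this
  rw [sum_congr rfl (fun ρ _ => h2 ρ), sum_const, nsmul_eq_mul, card_univ]

end Vale.Agent.P064
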