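import Vale.Agent.P064.KeyGF

/-!
# P064, part I: a maximiser without light elements has bounded ratio
-/

namespace Vale.Agent.P064

open Finset
open scoped Pointwise

variable {Γ : Type*} {X : Type*} [Group Γ] [Fintype Γ] [DecidableEq X] [MulAction Γ X]

/-- total number of missed elements, summed over tuples inside `G` -/
theorem iter_missed (F G : Finset X) (k : ℕ) :
    iter Γ F k (fun U => if U ⊆ G then ((G \ U).card : ℝ) else 0) ∅
      = ∑ e ∈ G, (cnt Γ F (G.erase e) : ℝ) ^ k := by
  have h1 : ∀ U : Finset X, (if U ⊆ G then ((G \ U).card : ℝ) else 0)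
      = ∑ e ∈ G, (if U ⊆ G.erase e then (1 : ℝ) else 0) := by
    intro U
    by_cases hU : U ⊆ G
    · simp only [hU, if_true]
      rw [← sum_filter, sum_const, nsmul_eq_mul, mul_one]
      congr 2
      ext e
      simp only [mem_sdiff, mem_filter]
      constructor
      · rintro ⟨he, hne⟩
        exact ⟨he, fun y hy => mem_erase.mpr ⟨fun h => hne (h ▸ hy), hU hy⟩⟩
      · rintro ⟨he, hs⟩
        exact ⟨he, fun h => (mem_erase.mp (hs h)).1 rfl⟩
    · have : ∀ e, ¬ U ⊆ G.erase e := fun e h => hU (h.trans (erase_subset _ _))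
      simp [hU, this]
  rw [iter_congr F h1, iter_sum]
  apply sum_congr rfl
  intro e _
  rw [iter_subset]
  simp

theorem cnt_eq_zero_of_not_emb {U G : Finset X} (h : ¬ Emb Γ U G) : cnt Γ U G = 0 := by
  unfold cnt
  rw [card_eq_zero, filter_eq_empty_iff]
  intro g _ hg
  exact h ⟨g, hg⟩

theorem card_le_of_cnt_pos {F G : Finset X} (h : 0 < cnt Γ F G) : F.card ≤ G.card := by
  unfold cnt at h
  obtain ⟨g, hg⟩ := card_pos.mp h
  rw [mem_filter] at hg
  calc F.card = (g • F).card := (Finset.card_smul_finset g F).symm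
    _ ≤ G.card := card_le_card hg.2

/-- pointwise upper bound used after the transfer identity -/
theorem cnt_theta_le {H G : Finset X} {q : ℝ} (hyp : Hyp Γ H q) (hG : G ⊆ H) (hq : 0 < q)
    (hs : 1 ≤ G.card) (U : Finset X) :
    (cnt Γ U G : ℝ) * (if G.card ≤ 2 * U.card then (1 : ℝ) else 0)
      ≤ ((Fintype.card Γ : ℝ) * (1 / 4) ^ G.card) * wEmb Γ G (64 * q) U := by
  have hw : 0 ≤ wEmb Γ G (64 * q) U := by
    unfold wEmb
    split_ifs
    · positivity
    · exact le_rfl
  by_cases hθ : G.card ≤ 2 * U.card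
  · simp only [hθ, if_true, mul_one]
    by_cases hE : Emb Γ U G
    · have hUne : U.Nonempty := by
        rw [← card_pos]; omega
      have h1 := cnt_le_choose hyp hG hUne
      have h2 : (G.card.choose U.card : ℝ) ≤ 2 ^ G.card := by
        exact_mod_cast Nat.choose_le_two_pow _ _
      have h3 : (8 : ℝ) ^ G.card ≤ 64 ^ U.card := by
        have : (64 : ℝ) ^ U.card = 8 ^ (2 * U.card) := by
          rw [pow_mul]; norm_num
        rw [this]
        exact pow_le_pow_right₀ (by norm_num) hθ
      simp only [wEmb, hE, if_true]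
      have hqU : 0 < q ^ U.card := pow_pos hq _
      have hc : (0 : ℝ) ≤ Fintype.card Γ := by positivity
      calc (cnt Γ U G : ℝ) ≤ (G.card.choose U.card : ℝ) * (Fintype.card Γ * q ^ U.card) := h1
        _ ≤ 2 ^ G.card * (Fintype.card Γ * q ^ U.card) := by
            apply mul_le_mul_of_nonneg_right h2; positivity
        _ = (Fintype.card Γ : ℝ) * (1 / 4) ^ G.card * (8 ^ G.card * q ^ U.card) := by
            have : (2 : ℝ) ^ G.card = (1 / 4) ^ G.card * 8 ^ G.card := by
              rw [← mul_pow]; norm_num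
            rw [this]; ring
        _ ≤ (Fintype.card Γ : ℝ) * (1 / 4) ^ G.card * (64 ^ U.card * q ^ U.card) := by
            apply mul_le_mul_of_nonneg_left _ (by positivity)
            exact mul_le_mul_of_nonneg_right h3 hqU.le
        _ = _ := by rw [mul_pow]
    · rw [cnt_eq_zero_of_not_emb hE]
      simp only [Nat.cast_zero]
      positivity
  · simp only [hθ, if_false, mul_zero]
    positivity

theorem exp_half_lt_two : Real.exp (1 / 2) < 2 := by
  have h1 : Real.exp (1 / 2) * Real.exp (1 / 2) = Real.exp 1 := by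
    rw [← Real.exp_add]; norm_num
  have h2 : Real.exp 1 < 2.7182818286 := Real.exp_one_lt_d9
  nlinarith [Real.exp_pos (1 / 2 : ℝ)]

theorem noLight {H G F : Finset X} {q γ Λ : ℝ} (hyp : Hyp Γ H q) (hG : G ⊆ H) (hq : 0 < q)
    (hγ : 0 < γ) (hγ1 : γ ≤ 1) (hΛ0 : 0 < Λ)
    (hΛ : ∀ J : Finset X, (cnt Γ J G : ℝ) ≤ Fintype.card Γ * (Λ * q) ^ J.card)
    (hF : (cnt Γ F G : ℝ) = Fintype.card Γ * (Λ * q) ^ F.card) (hFne : F.Nonempty)
    (hlight : ∀ e ∈ G, (cnt Γ F (G.erase e) : ℝ)
      ≤ (1 - γ * F.card / G.card) * cnt Γ F G) :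
    Λ < 384 / γ := by
  by_contra hcon
  rw [not_lt] at hcon
  have hcard : (0 : ℝ) < Fintype.card Γ := by
    exact_mod_cast Fintype.card_pos
  set m : ℝ := (cnt Γ F G : ℝ) with hm
  have hmpos : 0 < m := by rw [hF]; positivity
  have hmpos' : 0 < cnt Γ F G := by
    rw [hm] at hmpos; exact_mod_cast hmpos
  have hfs : F.card ≤ G.card := card_le_of_cnt_pos hmpos'
  have hf1 : 1 ≤ F.card := card_pos.mpr hFne
  have hs1 : 1 ≤ G.card := hf1.trans hfs
  set s : ℝ := (G.card : ℝ) with hs
  set f : ℝ := (F.card : ℝ) with hf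
  have hspos : 0 < s := by rw [hs]; exact_mod_cast hs1
  have hfpos : 0 < f := by rw [hf]; exact_mod_cast hf1
  have hfs' : f ≤ s := by rw [hf, hs]; exact_mod_cast hfs
  set x : ℝ := γ * f / s with hx
  have hxpos : 0 < x := by positivity
  have hx1 : x ≤ 1 := by
    rw [hx, div_le_one hspos]
    nlinarith
  obtain ⟨k, hk1, hk2⟩ : ∃ k : ℕ, 2 ≤ (k : ℝ) * x ∧ (k : ℝ) * f ≤ 3 * s / γ := by
    refine ⟨⌈2 / x⌉₊, ?_, ?_⟩
    · have := Nat.le_ceil (2 / x)
      rw [div_le_iff₀ hxpos] at this
      exact this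
    · have h1 : (⌈2 / x⌉₊ : ℝ) < 2 / x + 1 := Nat.ceil_lt_add_one (by positivity)
      have h2 : 2 / x * f = 2 * s / γ := by
        rw [hx]; field_simp
      have h3 : f ≤ s / γ := by
        rw [le_div_iff₀ hγ]; nlinarith
      calc (⌈2 / x⌉₊ : ℝ) * f ≤ (2 / x + 1) * f := by
            apply mul_le_mul_of_nonneg_right h1.le hfpos.le
        _ = 2 * s / γ + f := by rw [add_mul, h2, one_mul]
        _ ≤ 2 * s / γ + s / γ := by linarith
        _ = 3 * s / γ := by ring
  -- the missed elements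
  have hpow : (1 - x) ^ k ≤ 1 / 4 := by
    have h1 : (1 - x) ^ k ≤ Real.exp (-x) ^ k := by
      apply pow_le_pow_left₀ (by linarith)
      have := Real.add_one_le_exp (-x)
      linarith
    have h2 : Real.exp (-x) ^ k = Real.exp (-(k * x)) := by
      rw [← Real.exp_nat_mul]; ring_nf
    have h3 : Real.exp (-(k * x)) ≤ Real.exp (-2) := Real.exp_le_exp.mpr (by linarith)
    have h4 : Real.exp (-2) ≤ 1 / 4 := by
      rw [Real.exp_neg, inv_eq_one_div]
      apply one_div_le_one_div_of_le (by norm_num)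
      have := Real.add_one_le_exp (1 : ℝ)
      have h5 : Real.exp 2 = Real.exp 1 * Real.exp 1 := by rw [← Real.exp_add]; norm_num
      rw [h5]; nlinarith
    linarith [h1, h2 ▸ h3]
  have hmiss : iter Γ F k (fun U => if U ⊆ G then ((G \ U).card : ℝ) else 0) ∅
      ≤ s * (m ^ k / 4) := by
    rw [iter_missed]
    calc ∑ e ∈ G, (cnt Γ F (G.erase e) : ℝ) ^ k ≤ ∑ _e ∈ G, (m ^ k / 4) := by
          apply sum_le_sum
          intro e he
          calc (cnt Γ F (G.erase e) : ℝ) ^ k ≤ ((1 - x) * m) ^ k := by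
                apply pow_le_pow_left₀ (by positivity)
                exact hlight e he
            _ = (1 - x) ^ k * m ^ k := mul_pow _ _ _
            _ ≤ 1 / 4 * m ^ k := by
                apply mul_le_mul_of_nonneg_right hpow (by positivity)
            _ = m ^ k / 4 := by ring
      _ = s * (m ^ k / 4) := by rw [sum_const, nsmul_eq_mul]
  -- the good tuples
  set θ : ℕ → ℝ := fun j => if G.card ≤ 2 * j then (1 : ℝ) else 0 with hθ
  set Tg : ℝ := iter Γ F k (fun U => (if U ⊆ G then (1 : ℝ) else 0) * θ U.card) ∅ with hTg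
  have hall : iter Γ F k (fun U => if U ⊆ G then (1 : ℝ) else 0) ∅ = m ^ k := by
    rw [iter_subset]; simp [hm]
  have hsplit : m ^ k ≤ Tg + 2 / s * (s * (m ^ k / 4)) := by
    calc m ^ k = iter Γ F k (fun U => if U ⊆ G then (1 : ℝ) else 0) ∅ := hall.symm
      _ ≤ iter Γ F k (fun U => (if U ⊆ G then (1 : ℝ) else 0) * θ U.card
            + 2 / s * (if U ⊆ G then ((G \ U).card : ℝ) else 0)) ∅ := by
          apply iter_mono
          intro U
          by_cases hU : U ⊆ G
          · simp only [hU, if_true, one_mul, hθ]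
            by_cases h2 : G.card ≤ 2 * U.card
            · simp only [h2, if_true]
              have : 0 ≤ 2 / s * ((G \ U).card : ℝ) := by positivity
              linarith
            · simp only [h2, if_false, zero_add]
              have h3 : (G \ U).card = G.card - U.card := card_sdiff_of_subset hU
              have h4 : G.card ≤ 2 * (G \ U).card := by omega
              have h5 : s ≤ 2 * ((G \ U).card : ℝ) := by
                rw [hs]; exact_mod_cast h4
              rw [div_mul_eq_mul_div, le_div_iff₀ hspos]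
              linarith
          · simp [hU]
      _ = Tg + 2 / s * iter Γ F k (fun U => if U ⊆ G then ((G \ U).card : ℝ) else 0) ∅ := by
          rw [iter_add, iter_const_mul]
      _ ≤ Tg + 2 / s * (s * (m ^ k / 4)) := by
          have : 0 ≤ 2 / s := by positivity
          have := mul_le_mul_of_nonneg_left hmiss this
          linarith
  have hTg_lower : m ^ k / 2 ≤ Tg := by
    have : 2 / s * (s * (m ^ k / 4)) = m ^ k / 2 := by field_simp; ring
    linarith
  -- upper bound
  have hupper : (Fintype.card Γ : ℝ) * Tg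
      ≤ ((Fintype.card Γ : ℝ) * (1 / 4) ^ G.card)
        * (Fintype.card Γ * (Λ * q + 64 * q) ^ F.card) ^ k := by
    rw [hTg, transfer]
    calc iter Γ F k (fun U => (cnt Γ U G : ℝ) * θ U.card) ∅
        ≤ iter Γ F k (fun U => ((Fintype.card Γ : ℝ) * (1 / 4) ^ G.card)
            * wEmb Γ G (64 * q) U) ∅ := by
          apply iter_mono
          intro U
          exact cnt_theta_le hyp hG hq hs1 U
      _ = ((Fintype.card Γ : ℝ) * (1 / 4) ^ G.card) * iter Γ F k (wEmb Γ G (64 * q)) ∅ := by
          rw [iter_const_mul]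
      _ ≤ ((Fintype.card Γ : ℝ) * (1 / 4) ^ G.card)
          * ((Fintype.card Γ * (Λ * q + 64 * q) ^ F.card) ^ k * (64 * q) ^ (∅ : Finset X).card) := by
          apply mul_le_mul_of_nonneg_left _ (by positivity)
          exact iter_wEmb_le (by positivity) (by positivity) hΛ k ∅
      _ = _ := by simp
  have hfactor : (Fintype.card Γ * (Λ * q + 64 * q) ^ F.card) ^ k
      = m ^ k * ((1 + 64 / Λ) ^ F.card) ^ k := by
    rw [hF, ← mul_pow]
    congr 1
    have : Λ * q + 64 * q = (Λ * q) * (1 + 64 / Λ) := by field_simp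
    rw [this, mul_pow]; ring
  have hexp : ((1 + 64 / Λ) ^ F.card) ^ k ≤ Real.exp (s / 2) := by
    have h1 : 1 + 64 / Λ ≤ Real.exp (64 / Λ) := by
      have := Real.add_one_le_exp (64 / Λ); linarith
    have h2 : ((1 + 64 / Λ) ^ F.card) ^ k ≤ (Real.exp (64 / Λ) ^ F.card) ^ k := by
      apply pow_le_pow_left₀ (by positivity)
      exact pow_le_pow_left₀ (by positivity) h1 _
    have h3 : (Real.exp (64 / Λ) ^ F.card) ^ k = Real.exp (k * f * (64 / Λ)) := by
      rw [← Real.exp_nat_mul, ← Real.exp_nat_mul]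
      congr 1
      rw [hf]; ring
    have h4 : (k : ℝ) * f * (64 / Λ) ≤ s / 2 := by
      have h5 : 64 / Λ ≤ γ / 6 := by
        rw [div_le_div_iff₀ hΛ0 (by norm_num)]
        have := (div_le_iff₀ hγ).mp hcon
        linarith
      calc (k : ℝ) * f * (64 / Λ) ≤ (3 * s / γ) * (γ / 6) := by
            apply mul_le_mul hk2 h5 (by positivity) (by positivity)
        _ = s / 2 := by field_simp; ring
    rw [h3] at h2
    exact h2.trans (Real.exp_le_exp.mpr h4)
  have hfinal : (1 : ℝ) / 2 ≤ (1 / 4) ^ G.card * Real.exp (s / 2) := by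
    have hmk : 0 < m ^ k := by positivity
    have h1 : (Fintype.card Γ : ℝ) * (m ^ k / 2)
        ≤ ((Fintype.card Γ : ℝ) * (1 / 4) ^ G.card) * (m ^ k * Real.exp (s / 2)) := by
      calc (Fintype.card Γ : ℝ) * (m ^ k / 2) ≤ (Fintype.card Γ : ℝ) * Tg :=
            mul_le_mul_of_nonneg_left hTg_lower hcard.le
        _ ≤ _ := hupper
        _ = ((Fintype.card Γ : ℝ) * (1 / 4) ^ G.card) * (m ^ k * ((1 + 64 / Λ) ^ F.card) ^ k) := by
            rw [hfactor]
        _ ≤ _ := by
            apply mul_le_mul_of_nonneg_left _ (by positivity)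
            exact mul_le_mul_of_nonneg_left hexp hmk.le
    have h2 : (Fintype.card Γ : ℝ) * m ^ k * (1 / 2)
        ≤ (Fintype.card Γ : ℝ) * m ^ k * ((1 / 4) ^ G.card * Real.exp (s / 2)) := by
      calc (Fintype.card Γ : ℝ) * m ^ k * (1 / 2) = (Fintype.card Γ : ℝ) * (m ^ k / 2) := by ring
        _ ≤ _ := h1
        _ = _ := by ring
    exact le_of_mul_le_mul_left h2 (by positivity)
  have hlast : (1 / 4 : ℝ) ^ G.card * Real.exp (s / 2) < 1 / 2 := by
    have h1 : Real.exp (s / 2) = Real.exp (1 / 2) ^ G.card := by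
      rw [← Real.exp_nat_mul]; congr 1; rw [hs]; ring
    rw [h1, ← mul_pow]
    have h2 : 1 / 4 * Real.exp (1 / 2) < 1 / 2 := by
      have := exp_half_lt_two; linarith
    have h3 : 0 ≤ 1 / 4 * Real.exp (1 / 2) := by positivity
    calc (1 / 4 * Real.exp (1 / 2)) ^ G.card ≤ (1 / 4 * Real.exp (1 / 2)) ^ 1 := by
          apply pow_le_pow_of_le_one h3 (by linarith) hs1
      _ < 1 / 2 := by rw [pow_one]; exact h2
  linarith

end Vale.Agent.P064
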