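import Vale.Agent.P064.SpreadThm

/-!
# P064, part II: the spread theorem in threshold form
-/

namespace Vale.Agent.P064

open Finset

variable {α I : Type*} [DecidableEq α] [DecidableEq I]

open Classical in
/-- **Spread theorem.**  If a uniformly random member of the family `(S g)` contains each fixed set
`T` with probability at most `κ^|T|`, and all members have at most `ℓ` elements, then the
`p`-random subset contains a member with probability at least `1/2` as soon as
`p ≥ 256 κ (⌊log₂ ℓ⌋ + 1)`. -/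
theorem spread_threshold (X₀ : Finset α) [Fintype I] [Nonempty I] (S : I → Finset α)
    (hS : ∀ g, S g ⊆ X₀) (ℓ : ℕ) (hℓ : ∀ g, (S g).card ≤ ℓ) (κ : ℝ) (hκ : 0 < κ)
    (hsp : ∀ T : Finset α, ((univ.filter (fun g => T ⊆ S g)).card : ℝ)
      ≤ Fintype.card I * κ ^ T.card)
    (p : ℝ) (hp1 : p ≤ 1) (hp : 256 * κ * Nat.size ℓ ≤ p) :
    1 / 2 ≤ Ex X₀ p (fun W => if ∃ g, S g ⊆ W then (1 : ℝ) else 0) := by
  rcases Nat.eq_zero_or_pos ℓ with h0 | hpos
  · -- all members are empty
    subst h0
    have hall : ∀ W : Finset α, ∃ g, S g ⊆ W := by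
      intro W
      obtain ⟨g⟩ := (inferInstance : Nonempty I)
      refine ⟨g, ?_⟩
      have : S g = ∅ := Finset.card_eq_zero.1 (Nat.le_zero.1 (hℓ g))
      rw [this]
      exact Finset.empty_subset _
    have : (fun W : Finset α => if ∃ g, S g ⊆ W then (1 : ℝ) else 0) = fun _ => 1 := by
      funext W
      rw [if_pos (hall W)]
    rw [this, Ex_const]
    norm_num
  · have hsize : 1 ≤ Nat.size ℓ := Nat.size_pos.2 hpos
    have hsizeR : (1 : ℝ) ≤ Nat.size ℓ := by exact_mod_cast hsize
    have hκ1 : 256 * κ ≤ 1 := by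
      have : 256 * κ * 1 ≤ 256 * κ * Nat.size ℓ :=
        mul_le_mul_of_nonneg_left hsizeR (by positivity)
      linarith
    have hcard : (0 : ℝ) < Fintype.card I := by exact_mod_cast Fintype.card_pos
    set μ : I → ℝ := fun _ => 1 / Fintype.card I with hμ
    have hspread : Spread (univ : Finset I) S μ κ := by
      intro T
      rw [Finset.sum_const, nsmul_eq_mul, mul_one_div, div_le_iff₀ hcard, mul_comm]
      exact hsp T
    have hmain := spread_main X₀ κ hκ hκ1 ℓ univ S μ (fun _ => by positivity)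
      (fun g _ => hS g) (fun g _ => hℓ g) hspread
    have hsum : ∑ g ∈ (univ : Finset I), μ g = 1 := by
      rw [Finset.sum_const, nsmul_eq_mul, Finset.card_univ, mul_one_div, div_self hcard.ne']
    rw [hsum] at hmain
    set q : ℝ := 1 - (1 - 256 * κ) ^ (Nat.size ℓ) with hq
    set φ : Finset α → ℝ := fun W => if ∃ g, S g ⊆ W then (1 : ℝ) else 0 with hφ
    have hcompl : (fun W : Finset α => if ∃ g ∈ (univ : Finset I), S g ⊆ W then (0 : ℝ) else 1) =
        fun W => 1 + (-1) * φ W := by
      funext W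
      by_cases h : ∃ g, S g ⊆ W
      · have h' : ∃ g ∈ (univ : Finset I), S g ⊆ W := by
          obtain ⟨g, hg⟩ := h
          exact ⟨g, Finset.mem_univ g, hg⟩
        simp only [hφ]
        rw [if_pos h', if_pos h]
        norm_num
      · have h' : ¬ ∃ g ∈ (univ : Finset I), S g ⊆ W := by
          rintro ⟨g, -, hg⟩
          exact h ⟨g, hg⟩
        simp only [hφ]
        rw [if_neg h', if_neg h]
        norm_num
    rw [hcompl, Ex_add, Ex_const, Ex_const_mul] at hmain
    have hpow : (0 : ℝ) ≤ (1 / 8 : ℝ) ^ ℓ := by positivity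
    have hq1 : 1 / 2 ≤ Ex X₀ q φ := by linarith
    have hb0 : (0 : ℝ) ≤ 1 - 256 * κ := by linarith
    have hb1 : (1 : ℝ) - 256 * κ ≤ 1 := by linarith
    have hq0 : 0 ≤ q := by
      have := pow_le_one₀ (n := Nat.size ℓ) hb0 hb1
      linarith
    have hqp : q ≤ p := by
      have hbern := one_add_mul_le_pow (a := -(256 * κ)) (by linarith) (Nat.size ℓ)
      have e : (1 : ℝ) + -(256 * κ) = 1 - 256 * κ := by ring
      rw [e] at hbern
      have : q ≤ 256 * κ * Nat.size ℓ := by
        rw [hq]
        linarith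
      linarith
    refine le_trans hq1 (Ex_mono_p X₀ hq0 hqp hp1 ?_)
    intro W W' hWW' _
    simp only [hφ]
    by_cases h : ∃ g, S g ⊆ W
    · obtain ⟨g, hg⟩ := h
      rw [if_pos ⟨g, hg⟩, if_pos ⟨g, hg.trans hWW'⟩]
    · rw [if_neg h]
      split_ifs <;> norm_num

end Vale.Agent.P064
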