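import Vale.Agent.P064.Thresh
import Vale.Agent.P064.SpreadFinal

/-!
# P064, part III: the threshold is at most `C (log n)^2` times the expectation threshold
-/

namespace Vale.Agent.P064

open Finset Classical
open scoped Pointwise

variable {n : ℕ}

theorem Ex_one {α : Type*} [DecidableEq α] (X₀ : Finset α) (φ : Finset α → ℝ) :
    Ex X₀ 1 φ = φ X₀ := by
  unfold Ex bern
  rw [sum_eq_single X₀]
  · simp
  · intro W hW hne
    have hsub := mem_powerset.mp hW
    have hlt : W.card < X₀.card := card_lt_card (hsub.ssubset_of_ne hne)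
    have : X₀.card - W.card ≠ 0 := by omega
    simp [this]
  · intro h; exact absurd (mem_powerset.mpr (Subset.refl _)) h

theorem copies_pos_iff (G H : SimpleGraph (Fin n)) :
    0 < copies G H ↔ ∃ σ : Equiv.Perm (Fin n), σ • eF H ⊆ eF G := by
  rw [copies_eq_orb, orb, card_pos]
  constructor
  · rintro ⟨S, hS⟩
    rw [mem_filter, mem_powerset] at hS
    obtain ⟨hSG, σ, rfl⟩ := hS
    exact ⟨σ, hSG⟩
  · rintro ⟨σ, hσ⟩
    exact ⟨σ • eF H, mem_filter.mpr ⟨mem_powerset.mpr hσ, σ, rfl⟩⟩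

theorem probContains_eq (p : ℝ) (H : SimpleGraph (Fin n)) :
    probContains n p H = Ex (EK n) p
      (fun W => if ∃ σ : Equiv.Perm (Fin n), σ • eF H ⊆ W then (1 : ℝ) else 0) := by
  unfold probContains Ex
  rw [← sum_graphs (fun S => bern (EK n) p S *
    (if ∃ σ : Equiv.Perm (Fin n), σ • eF H ⊆ S then (1 : ℝ) else 0))]
  apply sum_congr rfl
  intro G _
  rw [gnp_eq_bern]
  by_cases h : 0 < copies G H
  · rw [if_pos h, if_pos ((copies_pos_iff G H).mp h), mul_one]
  · rw [if_neg h, if_neg (fun h' => h ((copies_pos_iff G H).mpr h')), mul_zero]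

theorem one_mem_pc (H : SimpleGraph (Fin n)) :
    (1 : ℝ) ∈ {p : ℝ | 0 ≤ p ∧ p ≤ 1 ∧ 1 / 2 ≤ probContains n p H} := by
  refine ⟨by norm_num, le_rfl, ?_⟩
  rw [probContains_eq, Ex_one, if_pos ⟨1, by rw [one_smul]; exact eF_subset_EK H⟩]
  norm_num

theorem card_filter_subset_smul (T U : Finset (Sym2 (Fin n))) :
    (univ.filter (fun σ : Equiv.Perm (Fin n) => T ⊆ σ • U)).card
      = cnt (Equiv.Perm (Fin n)) T U := by
  unfold cnt
  apply card_bij (fun σ _ => σ⁻¹)
  · intro σ hσ
    simp only [mem_filter, mem_univ, true_and] at hσ ⊢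
    have := Finset.smul_finset_subset_smul_finset (a := σ⁻¹) hσ
    rwa [inv_smul_smul] at this
  · intro a _ b _ h; exact inv_injective h
  · intro σ hσ
    refine ⟨σ⁻¹, ?_, inv_inv σ⟩
    simp only [mem_filter, mem_univ, true_and] at hσ ⊢
    have := Finset.smul_finset_subset_smul_finset (a := σ⁻¹) hσ
    rwa [inv_smul_smul] at this

theorem size_le (hn : 2 ≤ n) (H : SimpleGraph (Fin n)) :
    (Nat.size (eF H).card : ℝ) ≤ 5 * Real.log n := by
  have hn' : (2 : ℝ) ≤ n := by exact_mod_cast hn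
  have hlog2 : 0.6931471803 < Real.log 2 := Real.log_two_gt_d9
  have hlogn : Real.log 2 ≤ Real.log n := Real.log_le_log (by norm_num) hn'
  set r := Nat.size (eF H).card with hr
  rcases Nat.eq_zero_or_pos r with h0 | hpos
  · rw [h0]; simp only [Nat.cast_zero]; nlinarith
  · have h1 : 2 ^ (r - 1) ≤ (eF H).card := by
      rw [← Nat.lt_size]; omega
    have h2 : (eF H).card ≤ n ^ 2 := by
      calc (eF H).card ≤ (EK n).card := card_le_card (eF_subset_EK H)
        _ = n.choose 2 := card_EK n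
        _ ≤ n ^ 2 := Nat.choose_le_pow n 2
    have h3 : ((2 : ℝ) ^ (r - 1)) ≤ (n : ℝ) ^ 2 := by exact_mod_cast h1.trans h2
    have h4 : Real.log ((2 : ℝ) ^ (r - 1)) ≤ Real.log ((n : ℝ) ^ 2) :=
      Real.log_le_log (by positivity) h3
    rw [Real.log_pow, Real.log_pow] at h4
    have h5 : ((r - 1 : ℕ) : ℝ) = (r : ℝ) - 1 := by
      rw [Nat.cast_sub hpos]; simp
    rw [h5] at h4
    push_cast at h4
    have h6 : ((r : ℝ) - 1) * 0.6931471803 ≤ 2 * Real.log n := by
      have : (0 : ℝ) ≤ (r : ℝ) - 1 := by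
        have : (1 : ℝ) ≤ r := by exact_mod_cast hpos
        linarith
      nlinarith
    nlinarith

theorem pc_le (hn : 2 ≤ n) {H : SimpleGraph (Fin n)} (hH : H ≠ ⊥) :
    pc n H ≤ 10752000 * (Real.log n) ^ 2 * pE n H := by
  have hn' : (1 : ℝ) < n := by exact_mod_cast hn
  have hlog : 0 < Real.log n := Real.log_pos hn'
  have hC : 0 < 10752000 * (Real.log n) ^ 2 := by positivity
  have hbdd : BddBelow {p : ℝ | 0 ≤ p ∧ p ≤ 1 ∧ 1 / 2 ≤ probContains n p H} :=
    ⟨0, fun x hx => hx.1⟩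
  have key : ∀ p ∈ {p : ℝ | 0 ≤ p ∧ p ≤ 1 ∧
      ∀ F : SimpleGraph (Fin n), F ≤ H → 1 / 2 ≤ expCopies n p F},
      pc n H / (10752000 * (Real.log n) ^ 2) ≤ p := by
    rintro p ⟨hp0, _, hp⟩
    have hppos := pos_of_mem_pE hH hp0 hp
    rw [div_le_iff₀ hC, mul_comm]
    set κ : ℝ := 8400 * Real.log n * p with hκ
    have hκpos : 0 < κ := by positivity
    have hsz := size_le hn H
    have hle : 256 * κ * Nat.size (eF H).card ≤ 10752000 * (Real.log n) ^ 2 * p := by
      calc 256 * κ * Nat.size (eF H).card ≤ 256 * κ * (5 * Real.log n) :=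
            mul_le_mul_of_nonneg_left hsz (by positivity)
        _ = 10752000 * (Real.log n) ^ 2 * p := by rw [hκ]; ring
    by_cases h1 : 256 * κ * Nat.size (eF H).card ≤ 1
    · refine le_trans (csInf_le hbdd ?_) hle
      refine ⟨by positivity, h1, ?_⟩
      rw [probContains_eq]
      apply spread_threshold (EK n) (fun σ : Equiv.Perm (Fin n) => σ • eF H)
        (fun σ => smul_subset_EK σ (eF_subset_EK H)) (eF H).card
        (fun σ => by simp) κ hκpos _ _ h1 le_rfl
      intro T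
      rw [card_filter_subset_smul]
      exact counting_graph hn hppos hp T
    · rw [not_le] at h1
      exact le_trans (csInf_le hbdd (one_mem_pc H)) (h1.le.trans hle)
  have h2 := le_csInf ⟨1, one_mem_pE H⟩ key
  rw [div_le_iff₀ hC] at h2
  unfold pE
  linarith

end Vale.Agent.P064
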