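import Vale.Agent.P064.Fragment
import Vale.Agent.P064.BernUnion

/-!
# P064, part II: the spread theorem (Frankston-Kahn-Narayanan-Park), by halving rounds

Paper proof of `spread_main` by strong induction on `ℓ`.  `ℓ = 0`: every `S g`, `g ∈ A`, is empty,
so the integrand vanishes (if `A` is empty the sum of weights is zero).  `ℓ ≥ 1`: put `ℓ' = ℓ / 2`,
`p₀ = 256 κ`, `r = Nat.size ℓ'`, so `Nat.size ℓ = r + 1` and, by `Ex_union`,
`Ex X₀ (1 - (1 - p₀)^(r+1)) φ = Ex X₀ p₀ (fun W₁ => Ex X₀ (1 - (1 - p₀)^r) (fun W₂ => φ (W₁ ∪ W₂)))`.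
Fix `W₁ ⊆ X₀`; let `A₁` be the set of `g ∈ A` that are `Good A S ℓ' W₁`, and for `g ∈ A₁` let
`S' g = S g' \ W₁` with `g'` the witness.  Then `S' g ⊆ S g` (so `(A₁, S', μ)` is again spread),
`|S' g| ≤ ℓ'`, and if `S' g ⊆ W₂` then `S g' ⊆ W₁ ∪ W₂`.  Therefore
`φ (W₁ ∪ W₂) ≤ (if ∃ g ∈ A₁, S' g ⊆ W₂ then 0 else ∑_{A₁} μ) + ∑_{A \ A₁} μ`; apply the induction
hypothesis to the first term and `one_round` (with `κ / p₀ = 1/256`,
`2^ℓ (1/256)^(ℓ'+1) ≤ 2^ℓ (1/16)^(ℓ+1) = (1/16) (1/8)^ℓ`) to the second, and use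
`(1 - (1/8)^ℓ') / 112 + (1/16) (1/8)^ℓ ≤ (1 - (1/8)^ℓ) / 112` (as `ℓ' ≤ ℓ - 1`).
-/

namespace Vale.Agent.P064

open Finset

variable {α I : Type*} [DecidableEq α] [DecidableEq I]

theorem size_half (l : ℕ) (h : 0 < l) : Nat.size l = Nat.size (l / 2) + 1 := by
  conv_lhs => rw [← Nat.bit_bodd_div2 l]
  rw [Nat.size_bit, Nat.div2_val]
  rw [Nat.bit_bodd_div2]; omega

theorem num_step (l : ℕ) (h : 0 < l) :
    (1 - (1 / 8 : ℝ) ^ (l / 2)) / 112 + 2 ^ l * (1 / 256 : ℝ) ^ (l / 2 + 1)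
      ≤ (1 - (1 / 8 : ℝ) ^ l) / 112 := by
  have h1 : (1 / 256 : ℝ) ^ (l / 2 + 1) ≤ (1 / 16 : ℝ) ^ (l + 1) := by
    have e : (1 / 256 : ℝ) ^ (l / 2 + 1) = (1 / 16 : ℝ) ^ (2 * (l / 2 + 1)) := by
      rw [pow_mul]; norm_num
    rw [e]
    apply pow_le_pow_of_le_one (by norm_num) (by norm_num)
    omega
  have h2 : (2 : ℝ) ^ l * (1 / 16 : ℝ) ^ (l + 1) = (1 / 16) * (1 / 8 : ℝ) ^ l := by
    rw [pow_succ]
    have : (1 / 8 : ℝ) ^ l = 2 ^ l * (1 / 16 : ℝ) ^ l := by
      rw [← mul_pow]; norm_num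
    rw [this]; ring
  have h3 : (1 / 8 : ℝ) ^ (l - 1) ≤ (1 / 8 : ℝ) ^ (l / 2) := by
    apply pow_le_pow_of_le_one (by norm_num) (by norm_num)
    omega
  have h4 : (1 / 8 : ℝ) ^ l = (1 / 8) * (1 / 8 : ℝ) ^ (l - 1) := by
    rw [← pow_succ']
    congr 1; omega
  have h5 : (2 : ℝ) ^ l * (1 / 256 : ℝ) ^ (l / 2 + 1) ≤ (1 / 16) * (1 / 8 : ℝ) ^ l := by
    rw [← h2]
    exact mul_le_mul_of_nonneg_left h1 (by positivity)
  nlinarith

open Classical in
theorem spread_main (X₀ : Finset α) (κ : ℝ) (hκ : 0 < κ) (hκ1 : 256 * κ ≤ 1) :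
    ∀ (ℓ : ℕ) (A : Finset I) (S : I → Finset α) (μ : I → ℝ), (∀ g, 0 ≤ μ g) →
      (∀ g ∈ A, S g ⊆ X₀) → (∀ g ∈ A, (S g).card ≤ ℓ) → Spread A S μ κ →
      Ex X₀ (1 - (1 - 256 * κ) ^ (Nat.size ℓ))
        (fun W => if ∃ g ∈ A, S g ⊆ W then 0 else ∑ g ∈ A, μ g) ≤ (1 - (1 / 8) ^ ℓ) / 112 := by
  intro ℓ
  induction ℓ using Nat.strong_induction_on with
  | _ ℓ ih =>
  intro A S μ hμ hS hℓ hsp
  rcases Nat.eq_zero_or_pos ℓ with rfl | hpos
  · have h0 : (fun W : Finset α => if ∃ g ∈ A, S g ⊆ W then (0 : ℝ) else ∑ g ∈ A, μ g)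
        = fun _ => 0 := by
      funext W
      split_ifs with h
      · rfl
      · have hA : A = ∅ := by
          by_contra hne
          obtain ⟨g, hg⟩ := Finset.nonempty_iff_ne_empty.mpr hne
          apply h
          refine ⟨g, hg, ?_⟩
          have h1 := hℓ g hg
          have h2 : S g = ∅ := Finset.card_eq_zero.mp (Nat.le_zero.mp h1)
          rw [h2]; exact Finset.empty_subset _
        rw [hA]; simp
    rw [h0, Ex_const]; simp
  · set p₀ : ℝ := 256 * κ with hp₀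
    have hp0 : 0 < p₀ := by positivity
    set ℓ' : ℕ := ℓ / 2 with hℓ'
    set r : ℕ := Nat.size ℓ' with hr
    have hlt : ℓ' < ℓ := by omega
    set p' : ℝ := 1 - (1 - p₀) ^ r with hp'
    have hq0 : 0 ≤ 1 - p₀ := by linarith
    have hq1 : 1 - p₀ ≤ 1 := by linarith
    have hp'0 : 0 ≤ p' := by
      have : (1 - p₀) ^ r ≤ 1 := pow_le_one₀ hq0 hq1
      linarith
    have hp'1 : p' ≤ 1 := by
      have : 0 ≤ (1 - p₀) ^ r := pow_nonneg hq0 r
      linarith
    set φ : Finset α → ℝ := fun W => if ∃ g ∈ A, S g ⊆ W then 0 else ∑ g ∈ A, μ g with hφ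
    have e1 : Ex X₀ (1 - (1 - p₀) ^ (Nat.size ℓ)) φ
        = Ex X₀ p₀ (fun W₁ => Ex X₀ p' (fun W₂ => φ (W₁ ∪ W₂))) := by
      rw [Ex_union, size_half ℓ hpos]
      congr 1
      rw [hp', pow_succ]; ring
    rw [e1]
    set C : ℝ := (1 - (1 / 8 : ℝ) ^ ℓ') / 112 with hC
    have key : ∀ W₁ ⊆ X₀, Ex X₀ p' (fun W₂ => φ (W₁ ∪ W₂))
        ≤ C + ∑ g ∈ A.filter (fun g => ¬ Good A S ℓ' W₁ g), μ g := by
      intro W₁ _
      set A₁ : Finset I := A.filter (fun g => Good A S ℓ' W₁ g) with hA₁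
      set S' : I → Finset α := fun g =>
        if h : Good A S ℓ' W₁ g then S (Classical.choose h) \ W₁ else ∅ with hS'
      have hw : ∀ g, ∀ h : Good A S ℓ' W₁ g, Classical.choose h ∈ A ∧
          S (Classical.choose h) ⊆ S g ∪ W₁ ∧ (S (Classical.choose h) \ W₁).card ≤ ℓ' :=
        fun g h => Classical.choose_spec h
      have hS'sub : ∀ g, S' g ⊆ S g := by
        intro g
        simp only [hS']
        split_ifs with h
        · intro x hx
          rw [Finset.mem_sdiff] at hx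
          have := (hw g h).2.1 hx.1
          rw [Finset.mem_union] at this
          exact this.resolve_right hx.2
        · exact Finset.empty_subset _
      have hS'card : ∀ g, (S' g).card ≤ ℓ' := by
        intro g
        simp only [hS']
        split_ifs with h
        · exact (hw g h).2.2
        · simp
      have hIH := ih ℓ' hlt A₁ S' μ hμ
        (fun g hg => (hS'sub g).trans (hS g (Finset.mem_filter.mp hg).1))
        (fun g _ => hS'card g)
        (by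
          intro T
          refine le_trans ?_ (hsp T)
          apply Finset.sum_le_sum_of_subset_of_nonneg
          · intro g hg
            rw [Finset.mem_filter] at hg ⊢
            exact ⟨(Finset.mem_filter.mp hg.1).1, hg.2.trans (hS'sub g)⟩
          · intro g _ _; exact hμ g)
      set c : ℝ := ∑ g ∈ A.filter (fun g => ¬ Good A S ℓ' W₁ g), μ g with hc
      have hc0 : 0 ≤ c := Finset.sum_nonneg (fun g _ => hμ g)
      have hsplit : ∑ g ∈ A, μ g = ∑ g ∈ A₁, μ g + c := by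
        rw [hA₁, hc]
        exact (Finset.sum_filter_add_sum_filter_not A _ _).symm
      have hA₁0 : 0 ≤ ∑ g ∈ A₁, μ g := Finset.sum_nonneg (fun g _ => hμ g)
      have hle : Ex X₀ p' (fun W₂ => φ (W₁ ∪ W₂))
          ≤ Ex X₀ p' (fun W₂ => (if ∃ g ∈ A₁, S' g ⊆ W₂ then 0 else ∑ g ∈ A₁, μ g) + c) := by
        apply Ex_mono X₀ hp'0 hp'1
        intro W₂ _
        by_cases h1 : ∃ g ∈ A₁, S' g ⊆ W₂
        · rw [if_pos h1]
          obtain ⟨g, hg, hgW⟩ := h1
          have hgood : Good A S ℓ' W₁ g := (Finset.mem_filter.mp hg).2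
          have h2 : ∃ g ∈ A, S g ⊆ W₁ ∪ W₂ := by
            refine ⟨Classical.choose hgood, (hw g hgood).1, ?_⟩
            intro x hx
            rw [Finset.mem_union]
            by_cases hxW : x ∈ W₁
            · exact Or.inl hxW
            · right
              apply hgW
              simp only [hS']
              rw [dif_pos hgood, Finset.mem_sdiff]
              exact ⟨hx, hxW⟩
          simp only [hφ]
          rw [if_pos h2]; linarith
        · rw [if_neg h1]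
          simp only [hφ]
          split_ifs
          · linarith
          · linarith
      refine le_trans hle ?_
      rw [Ex_add, Ex_const]
      have := hIH
      linarith
    have h2 : Ex X₀ p₀ (fun W₁ => Ex X₀ p' (fun W₂ => φ (W₁ ∪ W₂)))
        ≤ Ex X₀ p₀ (fun W₁ => C + ∑ g ∈ A.filter (fun g => ¬ Good A S ℓ' W₁ g), μ g) :=
      Ex_mono X₀ hp0.le hκ1 key
    refine le_trans h2 ?_
    rw [Ex_add, Ex_const]
    have h3 := one_round X₀ A S μ hμ hS ℓ ℓ' hℓ κ p₀ hκ.le hp0 hκ1 (by rw [hp₀]; linarith) hsp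
    have h4 : κ / p₀ = 1 / 256 := by
      rw [hp₀]; field_simp
    rw [h4] at h3
    have h5 := num_step ℓ hpos
    linarith

end Vale.Agent.P064
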