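import Vale.Agent.P064.Graph
import Vale.Agent.P064.Induct

/-!
# P064, part III: the modified threshold is at most `C log n` times the expectation threshold
-/

namespace Vale.Agent.P064

open Finset Classical
open scoped Pointwise

variable {n : ℕ}

theorem orb_eq_sum (U W : Finset (Sym2 (Fin n))) (hW : W ⊆ EK n) :
    (orb (Equiv.Perm (Fin n)) U W : ℝ) = ∑ S ∈ (EK n).powerset.filter (fun S => ∃ g : (Equiv.Perm (Fin n)), g • U = S),
      (if S ⊆ W then (1 : ℝ) else 0) := by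
  rw [← sum_filter, sum_const, nsmul_eq_mul, mul_one, orb]
  congr 2
  ext S
  simp only [mem_filter, mem_powerset]
  constructor
  · rintro ⟨h1, h2⟩; exact ⟨⟨h1.trans hW, h2⟩, h1⟩
  · rintro ⟨⟨_, h2⟩, h1⟩; exact ⟨h1, h2⟩

theorem expCopies_eq (p : ℝ) (F : SimpleGraph (Fin n)) :
    expCopies n p F = (orb (Equiv.Perm (Fin n)) (eF F) (EK n) : ℝ) * p ^ (eF F).card := by
  have h1 : expCopies n p F = Ex (EK n) p (fun W => (orb (Equiv.Perm (Fin n)) (eF F) W : ℝ)) := by
    unfold expCopies Ex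
    rw [← sum_graphs (fun S => bern (EK n) p S * (orb (Equiv.Perm (Fin n)) (eF F) S : ℝ))]
    apply sum_congr rfl
    intro G _
    rw [gnp_eq_bern, copies_eq_orb]
  rw [h1, Ex_congr (EK n) p (orb_eq_sum (eF F)), Ex_sum]
  have h2 : ∀ S ∈ (EK n).powerset.filter (fun S => ∃ g : (Equiv.Perm (Fin n)), g • eF F = S),
      Ex (EK n) p (fun W => if S ⊆ W then (1 : ℝ) else 0) = p ^ (eF F).card := by
    intro S hS
    rw [mem_filter, mem_powerset] at hS
    obtain ⟨hSK, g, rfl⟩ := hS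
    rw [Ex_superset hSK, Finset.card_smul_finset]
  rw [sum_congr rfl h2, sum_const, nsmul_eq_mul, orb]

theorem card_eq_orb_mul {U : Finset (Sym2 (Fin n))} (hU : U ⊆ EK n) :
    Fintype.card (Equiv.Perm (Fin n)) = orb (Equiv.Perm (Fin n)) U (EK n) * cnt (Equiv.Perm (Fin n)) U U := by
  rw [← cnt_eq_orb_mul]
  unfold cnt
  rw [filter_true_of_mem (fun g _ => smul_subset_EK g hU), card_univ]

theorem orb_mono (U : Finset (Sym2 (Fin n))) {G G' : Finset (Sym2 (Fin n))} (h : G ⊆ G') :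
    orb (Equiv.Perm (Fin n)) U G ≤ orb (Equiv.Perm (Fin n)) U G' := by
  unfold orb
  apply card_le_card
  intro S hS
  rw [mem_filter, mem_powerset] at hS ⊢
  exact ⟨hS.1.trans h, hS.2⟩

theorem eF_nonempty {H : SimpleGraph (Fin n)} (hH : H ≠ ⊥) : (eF H).Nonempty := by
  by_contra h
  rw [not_nonempty_iff_eq_empty] at h
  apply hH
  apply eF_injective
  rw [h]
  ext e
  simp

/-- the hypothesis of the counting theorem, from the expectation threshold condition -/
theorem hyp_of_mem {H : SimpleGraph (Fin n)} {p : ℝ} (hp0 : 0 ≤ p)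
    (hp : ∀ F : SimpleGraph (Fin n), F ≤ H → 1 / 2 ≤ expCopies n p F) :
    Hyp (Equiv.Perm (Fin n)) (eF H) (2 * p) := by
  intro J hJ hne
  have hJK : J ⊆ EK n := hJ.trans (eF_subset_EK H)
  have hF := exists_graph hJK
  set F := SimpleGraph.fromEdgeSet (↑J : Set (Sym2 (Fin n))) with hFdef
  have hFH : F ≤ H := by rw [← eF_subset_iff, hF]; exact hJ
  have h1 := hp F hFH
  rw [expCopies_eq, hF] at h1
  have h2 : (Fintype.card (Equiv.Perm (Fin n)) : ℝ) = (orb (Equiv.Perm (Fin n)) J (EK n) : ℝ) * (cnt (Equiv.Perm (Fin n)) J J : ℝ) := by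
    exact_mod_cast card_eq_orb_mul hJK
  have h3 : (0 : ℝ) ≤ cnt (Equiv.Perm (Fin n)) J J := by positivity
  have h4 : (cnt (Equiv.Perm (Fin n)) J J : ℝ) * (1 / 2) ≤ Fintype.card (Equiv.Perm (Fin n)) * p ^ J.card := by
    calc (cnt (Equiv.Perm (Fin n)) J J : ℝ) * (1 / 2) ≤ cnt (Equiv.Perm (Fin n)) J J * ((orb (Equiv.Perm (Fin n)) J (EK n) : ℝ) * p ^ J.card) :=
          mul_le_mul_of_nonneg_left h1 h3
      _ = Fintype.card (Equiv.Perm (Fin n)) * p ^ J.card := by rw [h2]; ring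
  have h5 : (2 : ℝ) ≤ 2 ^ J.card := by
    calc (2 : ℝ) = 2 ^ 1 := by norm_num
      _ ≤ 2 ^ J.card := pow_le_pow_right₀ (by norm_num) (card_pos.mpr hne)
  rw [mul_pow]
  have h6 : 0 ≤ (Fintype.card (Equiv.Perm (Fin n)) : ℝ) * p ^ J.card := by positivity
  nlinarith

theorem rpow_card_le (hn : 2 ≤ n) (H : SimpleGraph (Fin n)) :
    ((eF H).card : ℝ) ^ (2 * (1 / (4 * Real.log n))) ≤ Real.exp 1 := by
  have hn' : (1 : ℝ) < n := by exact_mod_cast hn
  have hlog : 0 < Real.log n := Real.log_pos hn'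
  have h1 : ((eF H).card : ℝ) ≤ (n : ℝ) ^ 2 := by
    have : (eF H).card ≤ n ^ 2 := by
      calc (eF H).card ≤ (EK n).card := card_le_card (eF_subset_EK H)
        _ = n.choose 2 := card_EK n
        _ ≤ n ^ 2 := Nat.choose_le_pow n 2
    exact_mod_cast this
  calc ((eF H).card : ℝ) ^ (2 * (1 / (4 * Real.log n)))
      ≤ ((n : ℝ) ^ 2) ^ (2 * (1 / (4 * Real.log n))) := by
        apply Real.rpow_le_rpow (by positivity) h1 (by positivity)
    _ = Real.exp 1 := by
        rw [Real.rpow_def_of_pos (by positivity), Real.log_pow]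
        congr 1
        field_simp
        norm_num

theorem counting_graph (hn : 2 ≤ n) {H : SimpleGraph (Fin n)} {p : ℝ} (hp0 : 0 < p)
    (hp : ∀ F : SimpleGraph (Fin n), F ≤ H → 1 / 2 ≤ expCopies n p F)
    (J : Finset (Sym2 (Fin n))) :
    (cnt (Equiv.Perm (Fin n)) J (eF H) : ℝ) ≤ Fintype.card (Equiv.Perm (Fin n)) * (8400 * Real.log n * p) ^ J.card := by
  have hn' : (1 : ℝ) < n := by exact_mod_cast hn
  have hlog : 0 < Real.log n := Real.log_pos hn'
  have hlog2 : 1 / 2 ≤ Real.log n := by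
    have h1 : Real.log 2 ≤ Real.log n := Real.log_le_log (by norm_num) (by exact_mod_cast hn)
    have h2 : 0.6931471803 < Real.log 2 := Real.log_two_gt_d9
    linarith
  have hγ : 0 < 1 / (4 * Real.log n) := by positivity
  have hγ2 : 1 / (4 * Real.log n) ≤ 1 / 2 := by
    apply one_div_le_one_div_of_le (by norm_num); linarith
  have h := main_count (hyp_of_mem hp0.le hp) (by linarith : (0 : ℝ) < 2 * p) hγ hγ2 J
  refine h.trans ?_
  apply mul_le_mul_of_nonneg_left _ (by positivity)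
  apply pow_le_pow_left₀ (by positivity)
  have h1 := rpow_card_le hn H
  have h2 : Real.exp 1 < 2.7182818286 := Real.exp_one_lt_d9
  have h3 : 384 / (1 / (4 * Real.log n)) = 1536 * Real.log n := by field_simp; norm_num
  rw [h3]
  have h4 : 0 ≤ 1536 * Real.log n * (2 * p) := by positivity
  calc 1536 * Real.log n * ((eF H).card : ℝ) ^ (2 * (1 / (4 * Real.log n))) * (2 * p)
      = (1536 * Real.log n * (2 * p)) * ((eF H).card : ℝ) ^ (2 * (1 / (4 * Real.log n))) := by ring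
    _ ≤ (1536 * Real.log n * (2 * p)) * 2.7182818286 := by
        apply mul_le_mul_of_nonneg_left (by linarith) h4
    _ ≤ 8400 * Real.log n * p := by
        have : 0 ≤ Real.log n * p := by positivity
        nlinarith

/-- the counting statement in terms of copies -/
theorem copies_le (hn : 2 ≤ n) {H : SimpleGraph (Fin n)} {p : ℝ} (hp0 : 0 < p)
    (hp : ∀ F : SimpleGraph (Fin n), F ≤ H → 1 / 2 ≤ expCopies n p F)
    (F : SimpleGraph (Fin n)) :
    (copies H F : ℝ) ≤ (copies ⊤ F : ℝ) * (8400 * Real.log n * p) ^ F.edgeSet.ncard := by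
  have h := counting_graph hn hp0 hp (eF F)
  rw [cnt_eq_orb_mul, card_eq_orb_mul (eF_subset_EK F)] at h
  push_cast at h
  have hpos : (0 : ℝ) < cnt (Equiv.Perm (Fin n)) (eF F) (eF F) := by exact_mod_cast cnt_self_pos _
  rw [copies_eq_orb, copies_eq_orb, ← card_eF]
  have h' : (orb (Equiv.Perm (Fin n)) (eF F) (eF H) : ℝ) * cnt (Equiv.Perm (Fin n)) (eF F) (eF F)
      ≤ ((orb (Equiv.Perm (Fin n)) (eF F) (EK n) : ℝ) * (8400 * Real.log n * p) ^ (eF F).card)
        * cnt (Equiv.Perm (Fin n)) (eF F) (eF F) := by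
    calc _ ≤ _ := h
      _ = _ := by ring
  exact le_of_mul_le_mul_right h' hpos

theorem one_mem_pE (H : SimpleGraph (Fin n)) :
    (1 : ℝ) ∈ {p : ℝ | 0 ≤ p ∧ p ≤ 1 ∧
      ∀ F : SimpleGraph (Fin n), F ≤ H → 1 / 2 ≤ expCopies n p F} := by
  refine ⟨by norm_num, le_rfl, ?_⟩
  intro F _
  rw [expCopies_eq, one_pow, mul_one]
  have h1 : 0 < orb (Equiv.Perm (Fin n)) (eF F) (EK n) := by
    have := card_eq_orb_mul (eF_subset_EK F)
    have h2 : 0 < Fintype.card (Equiv.Perm (Fin n)) := Fintype.card_pos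
    rw [this] at h2
    exact Nat.pos_of_mul_pos_right h2 |> fun _ => Nat.pos_of_ne_zero (by
      intro h0; rw [h0, zero_mul] at h2; exact lt_irrefl _ h2)
  have : (1 : ℝ) ≤ orb (Equiv.Perm (Fin n)) (eF F) (EK n) := by exact_mod_cast h1
  linarith

theorem pos_of_mem_pE {H : SimpleGraph (Fin n)} (hH : H ≠ ⊥) {p : ℝ} (hp0 : 0 ≤ p)
    (hp : ∀ F : SimpleGraph (Fin n), F ≤ H → 1 / 2 ≤ expCopies n p F) : 0 < p := by
  rcases hp0.eq_or_lt with h | h
  · exfalso
    have h1 := hp H le_rfl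
    rw [expCopies_eq, ← h, zero_pow (card_pos.mpr (eF_nonempty hH)).ne', mul_zero] at h1
    linarith
  · exact h

theorem pEt_le (hn : 2 ≤ n) {H : SimpleGraph (Fin n)} (hH : H ≠ ⊥) :
    pEt n H ≤ 8400 * Real.log n * pE n H := by
  have hn' : (1 : ℝ) < n := by exact_mod_cast hn
  have hlog : 0 < Real.log n := Real.log_pos hn'
  have hC : 0 < 8400 * Real.log n := by positivity
  have key : ∀ p ∈ {p : ℝ | 0 ≤ p ∧ p ≤ 1 ∧
      ∀ F : SimpleGraph (Fin n), F ≤ H → 1 / 2 ≤ expCopies n p F},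
      pEt n H / (8400 * Real.log n) ≤ p := by
    rintro p ⟨hp0, _, hp⟩
    have hppos := pos_of_mem_pE hH hp0 hp
    rw [div_le_iff₀ hC, mul_comm]
    have hbdd : BddBelow {p : ℝ | 0 ≤ p ∧ p ≤ 1 ∧
        ∀ F : SimpleGraph (Fin n), F ≤ H → (copies H F : ℝ) / 2 ≤ expCopies n p F} :=
      ⟨0, fun x hx => hx.1⟩
    by_cases h1 : 8400 * Real.log n * p ≤ 1
    · apply csInf_le hbdd
      refine ⟨by positivity, h1, ?_⟩
      intro F _
      rw [expCopies_eq, card_eF]
      have h2 := copies_le hn hppos hp F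
      rw [copies_eq_orb ⊤ F] at h2
      have h3 : (0 : ℝ) ≤ copies H F := by positivity
      have : eF (⊤ : SimpleGraph (Fin n)) = EK n := rfl
      rw [this] at h2
      linarith
    · rw [not_le] at h1
      refine le_trans (csInf_le hbdd ?_) h1.le
      refine ⟨by norm_num, le_rfl, ?_⟩
      intro F _
      rw [expCopies_eq, one_pow, mul_one, copies_eq_orb]
      have h2 : (orb (Equiv.Perm (Fin n)) (eF F) (eF H) : ℝ) ≤ orb (Equiv.Perm (Fin n)) (eF F) (EK n) := by
        exact_mod_cast orb_mono _ (eF_subset_EK H)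
      have h3 : (0 : ℝ) ≤ orb (Equiv.Perm (Fin n)) (eF F) (eF H) := by positivity
      linarith
  have h2 := le_csInf ⟨1, one_mem_pE H⟩ key
  rw [div_le_iff₀ hC] at h2
  unfold pE
  linarith

end Vale.Agent.P064
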