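import Vale.Agent.P064.Core

/-!
# P064, part I: the trivial bound `cnt U G ≤ C(|G|,|U|) |Γ| q^|U|`
-/

namespace Vale.Agent.P064

open Finset
open scoped Pointwise

variable {Γ : Type*} {X : Type*} [Group Γ] [Fintype Γ] [DecidableEq X] [MulAction Γ X]

/-- The hypothesis: every nonempty subset `J` of `H` has an orbit of size at least `q^(-|J|)`,
written through the stabiliser. -/
def Hyp (Γ : Type*) {X : Type*} [Group Γ] [Fintype Γ] [DecidableEq X] [MulAction Γ X]
    (H : Finset X) (q : ℝ) : Prop :=
  ∀ J ⊆ H, J.Nonempty → (cnt Γ J J : ℝ) ≤ Fintype.card Γ * q ^ J.card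

theorem Hyp.mono {H G : Finset X} {q : ℝ} (h : Hyp Γ H q) (hG : G ⊆ H) : Hyp Γ G q :=
  fun J hJ hne => h J (hJ.trans hG) hne

theorem card_fiber_le (U U' : Finset X) :
    (univ.filter (fun g : Γ => g • U = U')).card ≤ cnt Γ U' U' := by
  classical
  by_cases h : ∃ g₀ : Γ, g₀ • U = U'
  · obtain ⟨g₀, hg₀⟩ := h
    unfold cnt
    apply card_le_card_of_injOn (fun g => g * g₀⁻¹)
    · intro g hg
      have hg' : g • U = U' := by simpa using hg
      have : (g * g₀⁻¹) • U' ⊆ U' := by
        rw [← hg₀, mul_smul, inv_smul_smul, hg', hg₀]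
      simpa using this
    · intro a _ b _ hab
      exact mul_right_cancel hab
  · have : (univ.filter (fun g : Γ => g • U = U')) = ∅ := by
      apply filter_eq_empty_iff.mpr
      intro g _ hg
      exact h ⟨g, hg⟩
    rw [this]
    simp

theorem cnt_le_choose {H G U : Finset X} {q : ℝ} (hyp : Hyp Γ H q) (hG : G ⊆ H)
    (hU : U.Nonempty) :
    (cnt Γ U G : ℝ) ≤ (G.card.choose U.card : ℝ) * (Fintype.card Γ * q ^ U.card) := by
  classical
  have h1 : cnt Γ U G = ∑ U' ∈ powersetCard U.card G,
      ((univ.filter (fun g : Γ => g • U ⊆ G)).filter (fun g => g • U = U')).card := by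
    unfold cnt
    apply card_eq_sum_card_fiberwise
    intro g hg
    have hg' : g • U ⊆ G := by simpa using hg
    have : g • U ∈ powersetCard U.card G := mem_powersetCard.mpr ⟨hg', by simp⟩
    exact_mod_cast this
  rw [h1]
  push_cast
  calc (∑ U' ∈ powersetCard U.card G,
      (((univ.filter (fun g : Γ => g • U ⊆ G)).filter (fun g => g • U = U')).card : ℝ))
      ≤ ∑ U' ∈ powersetCard U.card G, (Fintype.card Γ * q ^ U.card : ℝ) := by
        apply sum_le_sum
        intro U' hU'
        rw [mem_powersetCard] at hU'
        have hne : U'.Nonempty := by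
          rw [← card_pos, hU'.2]; exact card_pos.mpr hU
        have h2 := hyp U' (hU'.1.trans hG) hne
        rw [hU'.2] at h2
        refine le_trans ?_ h2
        have h3 : ((univ.filter (fun g : Γ => g • U ⊆ G)).filter (fun g => g • U = U')).card
            ≤ (univ.filter (fun g : Γ => g • U = U')).card := by
          apply card_le_card
          intro g hg
          simp only [mem_filter, mem_univ, true_and] at hg ⊢
          exact hg.2
        exact_mod_cast h3.trans (card_fiber_le U U')
    _ = (G.card.choose U.card : ℝ) * (Fintype.card Γ * q ^ U.card) := by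
        rw [sum_const, card_powersetCard, nsmul_eq_mul]

end Vale.Agent.P064
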